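import Mathlib

/-!
The Alexandrov-Mignot theorem for a nonnegative Lipschitz convex function on a finite dimensional
inner product space (blueprint section 8.1), proved through the proximal map.
-/

namespace Vale.Agent.Lib.P084V.AlexAux

open MeasureTheory Metric Set Filter Topology Module
open scoped NNReal

variable {E : Type*} [NormedAddCommGroup E] [InnerProductSpace ℝ E]

/-- subgradients. -/
def IsSub (φ : E → ℝ) (w g : E) : Prop := ∀ v, φ w + inner ℝ g (v - w) ≤ φ v

theorem IsSub.mono {φ : E → ℝ} {w₁ w₂ g₁ g₂ : E} (h₁ : IsSub φ w₁ g₁) (h₂ : IsSub φ w₂ g₂) :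
    0 ≤ inner ℝ (g₁ - g₂) (w₁ - w₂) := by
  have a := h₁ w₂
  have b := h₂ w₁
  have e1 : inner ℝ g₁ (w₂ - w₁) = - inner ℝ g₁ (w₁ - w₂) := by rw [← inner_neg_right, neg_sub]
  rw [inner_sub_left]
  linarith

theorem IsSub.norm_le {φ : E → ℝ} {L : ℝ≥0} (hL : LipschitzWith L φ) {w g : E}
    (h : IsSub φ w g) : ‖g‖ ≤ L := by
  have a := h (w + g)
  have b : φ (w + g) - φ w ≤ L * ‖g‖ := by
    have := hL.dist_le_mul (w + g) w
    rw [Real.dist_eq, dist_eq_norm] at this
    simpa using (le_abs_self _).trans this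
  simp only [add_sub_cancel_left, real_inner_self_eq_norm_sq] at a
  by_contra hc
  push Not at hc
  have : (0:ℝ) ≤ L := L.2
  nlinarith [norm_nonneg g]

theorem IsSub.combo {φ : E → ℝ} {w g₁ g₂ : E} (h₁ : IsSub φ w g₁) (h₂ : IsSub φ w g₂) {t : ℝ}
    (h0 : 0 ≤ t) (h1 : t ≤ 1) : IsSub φ w (g₁ + t • (g₂ - g₁)) := by
  intro v
  have a := h₁ v
  have b := h₂ v
  have : inner ℝ (g₁ + t • (g₂ - g₁)) (v - w)
      = (1 - t) * inner ℝ g₁ (v - w) + t * inner ℝ g₂ (v - w) := by
    rw [inner_add_left, inner_smul_left, inner_sub_left]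
    simp only [conj_trivial]
    ring
  rw [this]
  have h1' : 0 ≤ 1 - t := by linarith
  nlinarith [mul_le_mul_of_nonneg_left a h1', mul_le_mul_of_nonneg_left b h0]

section prox

variable [FiniteDimensional ℝ E]

/-- existence of the proximal point. -/
theorem exists_prox {φ : E → ℝ} (hc : ConvexOn ℝ univ φ) (hcont : Continuous φ)
    (h0 : ∀ w, 0 ≤ φ w) (z : E) : ∃ w, IsSub φ w (z - w) := by
  let h : E → ℝ := fun w => ‖w‖ ^ 2 / 2 + φ w - inner ℝ z w
  have hh : Continuous h := by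
    have : Continuous fun w : E => inner ℝ z w := continuous_const.inner continuous_id
    dsimp only [h]
    fun_prop
  have hlim : Tendsto h (cocompact E) atTop := by
    have h1 : Tendsto (fun t : ℝ => t * (t / 2 - ‖z‖)) atTop atTop :=
      Tendsto.atTop_mul_atTop₀ tendsto_id
        (tendsto_atTop_add_const_right _ _ (tendsto_id.atTop_div_const (by norm_num)))
    have h2 := h1.comp (tendsto_norm_cocompact_atTop (E := E))
    refine tendsto_atTop_mono (fun w => ?_) h2
    have a : inner ℝ z w ≤ ‖z‖ * ‖w‖ := real_inner_le_norm z w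
    have b := h0 w
    simp only [Function.comp, h]
    nlinarith
  obtain ⟨w, hw⟩ := hh.exists_forall_le hlim
  refine ⟨w, fun v => ?_⟩
  set d := v - w with hd
  by_contra hcon
  push Not at hcon
  set a := φ w + inner ℝ (z - w) d - φ v with ha
  have hapos : 0 < a := by rw [ha]; linarith
  -- choose a small step
  set t : ℝ := min 1 (a / (‖d‖ ^ 2 + 1)) with ht
  have hden : 0 < ‖d‖ ^ 2 + 1 := by positivity
  have ht0 : 0 < t := lt_min one_pos (div_pos hapos hden)
  have ht1 : t ≤ 1 := min_le_left _ _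
  have ht2 : t * (‖d‖ ^ 2 + 1) ≤ a := by
    have : t ≤ a / (‖d‖ ^ 2 + 1) := min_le_right _ _
    rwa [le_div_iff₀ hden] at this
  have hmin := hw (w + t • d)
  have hconv : φ (w + t • d) ≤ (1 - t) * φ w + t * φ v := by
    have := hc.2 (mem_univ w) (mem_univ v) (by linarith : 0 ≤ 1 - t) ht0.le (by ring)
    simp only [smul_eq_mul] at this
    have e : (1 - t) • w + t • v = w + t • d := by
      rw [hd, smul_sub, sub_smul, one_smul]
      abel
    rwa [e] at this
  have hnorm : ‖w + t • d‖ ^ 2 = ‖w‖ ^ 2 + 2 * (t * inner ℝ w d) + t ^ 2 * ‖d‖ ^ 2 := by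
    rw [norm_add_sq_real, norm_smul, inner_smul_right, mul_pow, Real.norm_eq_abs, sq_abs]
  have hin : inner ℝ z (w + t • d) = inner ℝ z w + t * inner ℝ z d := by
    rw [inner_add_right, inner_smul_right]
  have hin2 : inner ℝ (z - w) d = inner ℝ z d - inner ℝ w d := by rw [inner_sub_left]
  simp only [h] at hmin
  rw [hnorm, hin] at hmin
  have key : 0 ≤ t * (t * ‖d‖ ^ 2 / 2 - a) := by
    rw [ha, hin2]
    nlinarith
  have : t * ‖d‖ ^ 2 / 2 - a < 0 := by nlinarith [sq_nonneg ‖d‖]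
  nlinarith

end prox

section withR

variable {φ : E → ℝ} {R : E → E}

theorem R_eq (hR : ∀ z, IsSub φ (R z) (z - R z)) {w g : E} (h : IsSub φ w g) : R (w + g) = w := by
  have h1 := hR (w + g)
  have h2 := h.mono h1
  have e : g - (w + g - R (w + g)) = - (w - R (w + g)) := by abel
  rw [e, inner_neg_left, real_inner_self_eq_norm_sq] at h2
  have : ‖w - R (w + g)‖ ^ 2 = 0 := le_antisymm (by linarith) (by positivity)
  have h3 : ‖w - R (w + g)‖ = 0 := by simpa using this
  exact (sub_eq_zero.1 (norm_eq_zero.1 h3)).symm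

theorem firm (hR : ∀ z, IsSub φ (R z) (z - R z)) (z₁ z₂ : E) :
    ‖R z₁ - R z₂‖ ^ 2 ≤ inner ℝ (R z₁ - R z₂) (z₁ - z₂) := by
  have h := (hR z₁).mono (hR z₂)
  have e : z₁ - R z₁ - (z₂ - R z₂) = (z₁ - z₂) - (R z₁ - R z₂) := by abel
  rw [e, inner_sub_left, real_inner_self_eq_norm_sq, real_inner_comm] at h
  linarith

theorem R_lip (hR : ∀ z, IsSub φ (R z) (z - R z)) : LipschitzWith 1 R := by
  refine LipschitzWith.of_dist_le_mul fun z₁ z₂ => ?_
  rw [dist_eq_norm, dist_eq_norm]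
  simp only [NNReal.coe_one, one_mul]
  have h := firm hR z₁ z₂
  have h2 := real_inner_le_norm (R z₁ - R z₂) (z₁ - z₂)
  by_contra hc
  push Not at hc
  have : 0 ≤ ‖z₁ - z₂‖ := norm_nonneg _
  nlinarith

/-- the conjugate function. -/
noncomputable def Phi (φ : E → ℝ) (R : E → E) (z : E) : ℝ :=
  inner ℝ z (R z) - ‖R z‖ ^ 2 / 2 - φ (R z)

theorem Phi_ge (hR : ∀ z, IsSub φ (R z) (z - R z)) (z w : E) :
    inner ℝ z w - ‖w‖ ^ 2 / 2 - φ w ≤ Phi φ R z := by
  have h := hR z w
  unfold Phi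
  set r := R z
  have e1 : inner ℝ (z - r) (w - r) = inner ℝ z w - inner ℝ z r - inner ℝ r w + ‖r‖ ^ 2 := by
    rw [inner_sub_left, inner_sub_right, inner_sub_right, real_inner_self_eq_norm_sq]
    ring
  have e2 : ‖w - r‖ ^ 2 = ‖w‖ ^ 2 - 2 * inner ℝ r w + ‖r‖ ^ 2 := by
    rw [norm_sub_sq_real, real_inner_comm]
  have : 0 ≤ ‖w - r‖ ^ 2 := by positivity
  nlinarith

theorem Phi_bounds (hR : ∀ z, IsSub φ (R z) (z - R z)) (z h : E) :
    0 ≤ Phi φ R (z + h) - Phi φ R z - inner ℝ h (R z) ∧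
      Phi φ R (z + h) - Phi φ R z - inner ℝ h (R z) ≤ ‖h‖ ^ 2 := by
  constructor
  · have := Phi_ge hR (z + h) (R z)
    rw [inner_add_left] at this
    unfold Phi at this ⊢
    linarith
  · have a := Phi_ge hR z (R (z + h))
    have b : Phi φ R (z + h) = inner ℝ (z + h) (R (z + h)) - ‖R (z + h)‖ ^ 2 / 2 - φ (R (z + h)) :=
      rfl
    rw [inner_add_left] at b
    have c : inner ℝ h (R (z + h) - R z) ≤ ‖h‖ ^ 2 := by
      have c1 := real_inner_le_norm h (R (z + h) - R z)
      have c2 := (R_lip hR).dist_le_mul (z + h) z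
      rw [dist_eq_norm, dist_eq_norm] at c2
      simp only [NNReal.coe_one, one_mul, add_sub_cancel_left] at c2
      nlinarith [norm_nonneg h]
    rw [inner_sub_right] at c
    linarith

theorem hasFDerivAt_Phi (hR : ∀ z, IsSub φ (R z) (z - R z)) (z : E) :
    HasFDerivAt (Phi φ R) (innerSL ℝ (R z)) z := by
  rw [hasFDerivAt_iff_isLittleO_nhds_zero]
  rw [Asymptotics.isLittleO_iff]
  intro c hc
  have : ball (0 : E) c ∈ 𝓝 (0 : E) := ball_mem_nhds _ hc
  filter_upwards [this] with h hh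
  have hh' : ‖h‖ < c := by simpa using hh
  obtain ⟨a, b⟩ := Phi_bounds hR z h
  have e : (innerSL ℝ (R z)) h = inner ℝ h (R z) := by
    rw [innerSL_apply_apply, real_inner_comm]
  rw [e, Real.norm_eq_abs, abs_of_nonneg a]
  nlinarith [norm_nonneg h]

end withR

section deriv

variable {φ : E → ℝ} {R : E → E}

/-- the directional slope of a differentiable map. -/
theorem tendsto_slope {A : E →L[ℝ] E} {z : E} (hA : HasFDerivAt R A z) (d : E) :
    Tendsto (fun t : ℝ => t⁻¹ • (R (z + t • d) - R z)) (𝓝[>] 0) (𝓝 (A d)) := by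
  have h1 : HasDerivAt (fun t : ℝ => z + t • d) d 0 := by
    simpa using ((hasDerivAt_id (0 : ℝ)).smul_const d).const_add z
  have hA' : HasFDerivAt R A (z + (0 : ℝ) • d) := by simpa using hA
  have h2 : HasDerivAt (fun t : ℝ => R (z + t • d)) (A d) 0 :=
    HasFDerivAt.comp_hasDerivAt (f := fun t : ℝ => z + t • d) (0 : ℝ) hA' h1
  have h3 := hasDerivAt_iff_tendsto_slope_zero.1 h2
  simp only [zero_add, zero_smul, add_zero] at h3
  exact h3.mono_left (nhdsWithin_mono _ fun x hx => ne_of_gt hx)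

/-- firm nonexpansiveness of the derivative. -/
theorem deriv_firm (hR : ∀ z, IsSub φ (R z) (z - R z)) {A : E →L[ℝ] E} {z : E}
    (hA : HasFDerivAt R A z) (d : E) : ‖A d‖ ^ 2 ≤ inner ℝ (A d) d := by
  have h := tendsto_slope hA d
  have h1 : Tendsto (fun t : ℝ => ‖t⁻¹ • (R (z + t • d) - R z)‖ ^ 2) (𝓝[>] 0) (𝓝 (‖A d‖ ^ 2)) :=
    (h.norm).pow 2
  have h2 : Tendsto (fun t : ℝ => inner ℝ (t⁻¹ • (R (z + t • d) - R z)) d) (𝓝[>] 0)
      (𝓝 (inner ℝ (A d) d)) := h.inner tendsto_const_nhds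
  refine le_of_tendsto_of_tendsto h1 h2 ?_
  filter_upwards [self_mem_nhdsWithin] with t ht
  have ht0 : (0 : ℝ) < t := ht
  have hf := firm hR (z + t • d) z
  rw [add_sub_cancel_left, inner_smul_right] at hf
  rw [norm_smul, inner_smul_left, mul_pow, norm_inv, Real.norm_eq_abs, abs_of_pos ht0]
  simp only [conj_trivial]
  have : (t⁻¹) ^ 2 * ‖R (z + t • d) - R z‖ ^ 2 ≤ (t⁻¹) ^ 2 * (t * inner ℝ (R (z + t • d) - R z) d) :=
    mul_le_mul_of_nonneg_left hf (by positivity)
  have e : (t⁻¹) ^ 2 * (t * inner ℝ (R (z + t • d) - R z) d)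
      = t⁻¹ * inner ℝ (R (z + t • d) - R z) d := by
    field_simp
  linarith

variable [FiniteDimensional ℝ E]

/-- the linear map into the dual given by the inner product. -/
noncomputable def innerL : E →L[ℝ] StrongDual ℝ E :=
  LinearMap.toContinuousLinearMap
    { toFun := fun a => innerSL ℝ a
      map_add' := fun a b => by
        ext c
        simp
      map_smul' := fun t a => by
        ext c
        simp }

theorem innerL_apply (a b : E) : innerL a b = inner ℝ a b := by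
  simp [innerL]

theorem deriv_symm (hR : ∀ z, IsSub φ (R z) (z - R z)) {A : E →L[ℝ] E} {z : E}
    (hA : HasFDerivAt R A z) (a b : E) : inner ℝ (A a) b = inner ℝ (A b) a := by
  have h1 : ∀ᶠ y in 𝓝 z, HasFDerivAt (Phi φ R) (innerL (R y)) y := by
    refine Eventually.of_forall fun y => ?_
    have h := hasFDerivAt_Phi hR y
    have e : innerL (R y) = innerSL ℝ (R y) := by
      ext c
      simp [innerL_apply]
    rw [e]
    exact h
  have h2 : HasFDerivAt (fun y => innerL (R y)) (innerL.comp A) z :=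
    (innerL (E := E)).hasFDerivAt.comp z hA
  have := second_derivative_symmetric_of_eventually h1 h2 a b
  simpa [innerL_apply] using this

end deriv

section main

variable [FiniteDimensional ℝ E] {φ : E → ℝ} {R : E → E}

omit [FiniteDimensional ℝ E] in
/-- all preimages of `w` lie in the same place as soon as the derivative is injective. -/
theorem preimage_unique (hR : ∀ z, IsSub φ (R z) (z - R z)) {A A' : E →L[ℝ] E} {z z' : E}
    (hA : HasFDerivAt R A z) (hinv : ∀ v, A' (A v) = v) (hzz : R z' = R z) : z' = z := by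
  set w := R z with hw
  have s1 : IsSub φ w (z - w) := hR z
  have s2 : IsSub φ w (z' - w) := by
    have := hR z'
    rwa [hzz] at this
  set d := z' - z with hd
  have hlim := tendsto_slope hA d
  have hzero : ∀ t : ℝ, 0 < t → t ≤ 1 → t⁻¹ • (R (z + t • d) - R z) = 0 := by
    intro t ht0 ht1
    have h3 := s1.combo s2 ht0.le ht1
    have h4 := R_eq hR h3
    have e : w + (z - w + t • (z' - w - (z - w))) = z + t • d := by
      rw [hd]
      have : z' - w - (z - w) = z' - z := by abel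
      rw [this]
      abel
    rw [e] at h4
    rw [h4, ← hw, sub_self, smul_zero]
  have hev : ∀ᶠ t in 𝓝[>] (0 : ℝ), t⁻¹ • (R (z + t • d) - R z) = 0 := by
    have : Ioc (0 : ℝ) 1 ∈ 𝓝[>] (0 : ℝ) := Ioc_mem_nhdsGT one_pos
    filter_upwards [this] with t ht using hzero t ht.1 ht.2
  have h5 : A d = 0 :=
    tendsto_nhds_unique hlim (tendsto_const_nhds.congr' (hev.mono fun t ht => ht.symm))
  have h6 : d = 0 := by
    have := hinv d
    rw [h5, map_zero] at this
    exact this.symm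
  exact sub_eq_zero.1 h6

/-- the continuity of the inverse at a point with injective derivative. -/
theorem preimage_cont (hR : ∀ z, IsSub φ (R z) (z - R z)) {A A' : E →L[ℝ] E} {z : E}
    (hA : HasFDerivAt R A z) (hinv : ∀ v, A' (A v) = v) (C : ℝ) {η : ℝ} (hη : 0 < η) :
    ∃ δ > 0, ∀ z', ‖z' - z‖ ≤ C → ‖R z' - R z‖ < δ → ‖z' - z‖ < η := by
  -- compactness of the annulus
  have hcomp : IsCompact (closedBall z C \ ball z η) :=
    (isCompact_closedBall z C).diff isOpen_ball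
  have hcontR : Continuous fun z' => ‖R z' - R z‖ := by
    have := (R_lip hR).continuous
    fun_prop
  by_cases hne : (closedBall z C \ ball z η).Nonempty
  · obtain ⟨z₀, hz₀, hmin⟩ := hcomp.exists_isMinOn hne hcontR.continuousOn
    have hpos : 0 < ‖R z₀ - R z‖ := by
      rw [norm_pos_iff]
      intro hh
      have := preimage_unique hR hA hinv (sub_eq_zero.1 hh)
      rw [this] at hz₀
      exact hz₀.2 (mem_ball_self hη)
    refine ⟨_, hpos, fun z' h1 h2 => ?_⟩
    by_contra hcon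
    have hmem : z' ∈ closedBall z C \ ball z η := by
      refine ⟨by simpa [dist_eq_norm] using h1, ?_⟩
      simpa [dist_eq_norm] using hcon
    have := hmin hmem
    simp only [mem_ofPred_eq] at this
    linarith
  · refine ⟨1, one_pos, fun z' h1 _ => ?_⟩
    by_contra hcon
    exact hne ⟨z', by simpa [dist_eq_norm] using h1, by simpa [dist_eq_norm] using hcon⟩

/-- local expansion at a point with invertible derivative. -/
theorem local_expand (hR : ∀ z, IsSub φ (R z) (z - R z)) {L : ℝ≥0} (hL : LipschitzWith L φ)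
    {A A' : E →L[ℝ] E} {w g : E} (hg : IsSub φ w g) (hA : HasFDerivAt R A (w + g))
    (hinv : ∀ v, A' (A v) = v) {ε : ℝ} (hε : 0 < ε) :
    ∃ δ > 0, ∀ w' g', ‖w' - w‖ < δ → IsSub φ w' g' →
      ‖g' - g - (A' (w' - w) - (w' - w))‖ ≤ ε * ‖w' - w‖ := by
  set z := w + g with hz
  have hRz : R z = w := R_eq hR hg
  set M := ‖A'‖ with hM
  have hM0 : 0 ≤ M := norm_nonneg _
  -- small constant
  set κ : ℝ := min (1 / (2 * (M + 1))) (ε / (2 * (M + 1) ^ 2)) with hκ
  have hκpos : 0 < κ := lt_min (by positivity) (by positivity)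
  obtain ⟨η, hη, hder⟩ : ∃ η > 0, ∀ z', ‖z' - z‖ < η →
      ‖R z' - R z - A (z' - z)‖ ≤ κ * ‖z' - z‖ := by
    have := hA.isLittleO.def hκpos
    obtain ⟨η, hη, hb⟩ := Metric.eventually_nhds_iff.1 this
    refine ⟨η, hη, fun z' hz' => hb ?_⟩
    simpa [dist_eq_norm] using hz'
  obtain ⟨δ, hδ, hcont⟩ := preimage_cont hR hA hinv (1 + 2 * L) hη
  refine ⟨min δ 1, lt_min hδ one_pos, fun w' g' hw' hg' => ?_⟩
  have hw'1 : ‖w' - w‖ < δ := lt_of_lt_of_le hw' (min_le_left _ _)
  have hw'2 : ‖w' - w‖ < 1 := lt_of_lt_of_le hw' (min_le_right _ _)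
  set z' := w' + g' with hz'
  have hRz' : R z' = w' := R_eq hR hg'
  have e1 : z' - z = (w' - w) + (g' - g) := by rw [hz', hz]; abel
  have hbd : ‖z' - z‖ ≤ 1 + 2 * L := by
    rw [e1]
    have a1 := hg.norm_le hL
    have a2 := hg'.norm_le hL
    have a3 : ‖g' - g‖ ≤ ‖g'‖ + ‖g‖ := norm_sub_le _ _
    have a4 := norm_add_le (w' - w) (g' - g)
    linarith
  have hk : ‖z' - z‖ < η := hcont z' hbd (by rw [hRz', hRz]; exact hw'1)
  have h1 := hder z' hk
  rw [hRz', hRz] at h1
  set k := z' - z with hkdef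
  set d := w' - w with hd
  -- apply the inverse
  have h2 : ‖A' d - k‖ ≤ M * (κ * ‖k‖) := by
    have : A' d - k = A' (d - A k) := by rw [map_sub A' d (A k), hinv]
    rw [this]
    exact (A'.le_opNorm _).trans (mul_le_mul_of_nonneg_left h1 hM0)
  have hκ1 : κ ≤ 1 / (2 * (M + 1)) := min_le_left _ _
  have hκ2 : κ ≤ ε / (2 * (M + 1) ^ 2) := min_le_right _ _
  have hκ1' : κ * (2 * (M + 1)) ≤ 1 := by rwa [le_div_iff₀ (by positivity)] at hκ1
  have hκ2' : κ * (2 * (M + 1) ^ 2) ≤ ε := by rwa [le_div_iff₀ (by positivity)] at hκ2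
  have hk0 : 0 ≤ ‖k‖ := norm_nonneg _
  have hd0 : 0 ≤ ‖d‖ := norm_nonneg _
  have h3 : ‖k‖ ≤ 2 * (M + 1) * ‖d‖ := by
    have a1 : ‖k‖ ≤ ‖A' d‖ + ‖A' d - k‖ := by
      have := norm_sub_norm_le k (A' d)
      rw [norm_sub_rev k (A' d)] at this
      linarith
    have a2 : ‖A' d‖ ≤ M * ‖d‖ := A'.le_opNorm _
    have a3 : M * (κ * ‖k‖) ≤ ‖k‖ / 2 := by
      have : M * κ ≤ 1 / 2 := by nlinarith
      nlinarith
    nlinarith
  have e2 : g' - g - (A' d - d) = k - A' d := by
    rw [e1]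
    abel
  rw [e2, norm_sub_rev]
  calc ‖A' d - k‖ ≤ M * (κ * ‖k‖) := h2
    _ ≤ M * (κ * (2 * (M + 1) * ‖d‖)) := by gcongr
    _ = (κ * (2 * (M + 1) ^ 2)) * ‖d‖ * (M / (M + 1)) := by field_simp
    _ ≤ ε * ‖d‖ * 1 := by
        have : M / (M + 1) ≤ 1 := by
          rw [div_le_one (by positivity)]
          linarith
        gcongr
    _ = ε * ‖d‖ := mul_one _

end main

section null

variable [FiniteDimensional ℝ E] [MeasurableSpace E] [BorelSpace E]

/-- Lipschitz images of null sets are null. -/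
theorem null_image_lip (μ : Measure E) [μ.IsAddHaarMeasure] {f : E → E} {K : ℝ≥0}
    (hf : LipschitzWith K f) {s : Set E} (hs : μ s = 0) : μ (f '' s) = 0 := by
  have h1 : (Measure.hausdorffMeasure (finrank ℝ E : ℝ) : Measure E) s = 0 :=
    (Measure.absolutelyContinuous_isAddHaarMeasure _ μ) hs
  have h2 := hf.hausdorffMeasure_image_le (d := (finrank ℝ E : ℝ)) (by positivity) s
  rw [h1, mul_zero] at h2
  exact (Measure.absolutelyContinuous_isAddHaarMeasure μ _) (le_antisymm h2 bot_le)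

/-- the exceptional set. -/
theorem null_bad (μ : Measure E) [μ.IsAddHaarMeasure] {R : E → E}
    (hlip : LipschitzWith 1 R) :
    μ (R '' {z | ¬ DifferentiableAt ℝ R z ∨ (fderiv ℝ R z).det = 0}) = 0 := by
  have h1 : μ {z | ¬ DifferentiableAt ℝ R z} = 0 := by
    have := hlip.ae_differentiableAt (μ := μ)
    rwa [ae_iff] at this
  have h2 : μ (R '' {z | ¬ DifferentiableAt ℝ R z}) = 0 := null_image_lip μ hlip h1
  have h3 : μ (R '' {z | DifferentiableAt ℝ R z ∧ (fderiv ℝ R z).det = 0}) = 0 := by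
    refine addHaar_image_eq_zero_of_det_fderivWithin_eq_zero μ (f' := fderiv ℝ R) ?_ ?_
    · intro x hx
      exact hx.1.hasFDerivAt.hasFDerivWithinAt
    · intro x hx
      exact hx.2
  refine measure_mono_null ?_ (measure_union_null h2 h3)
  rintro _ ⟨z, hz, rfl⟩
  by_cases hd : DifferentiableAt ℝ R z
  · right
    exact ⟨z, ⟨hd, hz.resolve_left (not_not.2 hd)⟩, rfl⟩
  · left
    exact ⟨z, hd, rfl⟩

end null

/-- Alexandrov-Mignot theorem. -/
theorem mignot [FiniteDimensional ℝ E] [MeasurableSpace E] [BorelSpace E]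
    {φ : E → ℝ} (hc : ConvexOn ℝ univ φ) {L : ℝ≥0} (hL : LipschitzWith L φ) (h0 : ∀ w, 0 ≤ φ w)
    (hsub : ∀ w, ∃ g, IsSub φ w g) (μ : Measure E) [μ.IsAddHaarMeasure] :
    ∀ᵐ w ∂μ, ∃ (g : E) (W : E →L[ℝ] E), IsSub φ w g ∧ (∀ a b, inner ℝ (W a) b = inner ℝ (W b) a) ∧
      (∀ a, 0 ≤ inner ℝ (W a) a) ∧ ∀ ε > 0, ∃ δ > 0, ∀ w' g', ‖w' - w‖ < δ → IsSub φ w' g' →
        ‖g' - g - W (w' - w)‖ ≤ ε * ‖w' - w‖ := by
  have hR : ∀ z, ∃ w, IsSub φ w (z - w) := exists_prox hc hL.continuous h0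
  choose R hR using hR
  have hnull := null_bad μ (R_lip hR)
  have hae : ∀ᵐ w ∂μ, w ∉ R '' {z | ¬ DifferentiableAt ℝ R z ∨ (fderiv ℝ R z).det = 0} :=
    measure_eq_zero_iff_ae_notMem.1 hnull
  filter_upwards [hae] with w hw
  obtain ⟨g, hg⟩ := hsub w
  have hRz : R (w + g) = w := R_eq hR hg
  have hgood : DifferentiableAt ℝ R (w + g) ∧ (fderiv ℝ R (w + g)).det ≠ 0 := by
    by_contra hcon
    apply hw
    refine ⟨w + g, ?_, hRz⟩
    by_contra hcon2
    simp only [mem_ofPred_eq, not_or, not_not] at hcon2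
    exact hcon hcon2
  set A := fderiv ℝ R (w + g) with hAdef
  have hA : HasFDerivAt R A (w + g) := hgood.1.hasFDerivAt
  -- the inverse
  obtain ⟨A', hinv, hinv'⟩ : ∃ A' : E →L[ℝ] E, (∀ v, A' (A v) = v) ∧ (∀ v, A (A' v) = v) := by
    have h1 : IsUnit (A : E →ₗ[ℝ] E).det := isUnit_iff_ne_zero.2 hgood.2
    obtain ⟨u, hu⟩ := (LinearMap.isUnit_iff_isUnit_det _).2 h1
    refine ⟨LinearMap.toContinuousLinearMap (↑u⁻¹ : E →ₗ[ℝ] E), fun v => ?_, fun v => ?_⟩
    · have : ((↑u⁻¹ : E →ₗ[ℝ] E) * (u : E →ₗ[ℝ] E)) v = v := by simp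
      rw [hu] at this
      exact this
    · have : ((u : E →ₗ[ℝ] E) * (↑u⁻¹ : E →ₗ[ℝ] E)) v = v := by simp
      rw [hu] at this
      exact this
  have hs := deriv_symm hR hA
  have hf := deriv_firm hR hA
  refine ⟨g, A' - ContinuousLinearMap.id ℝ E, hg, ?_, ?_, ?_⟩
  · intro a b
    simp only [sub_apply, ContinuousLinearMap.id_apply, inner_sub_left]
    have : inner ℝ (A' a) b = inner ℝ (A' b) a := by
      have h1 := hs (A' a) (A' b)
      rw [hinv', hinv'] at h1
      calc inner ℝ (A' a) b = inner ℝ b (A' a) := real_inner_comm _ _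
        _ = inner ℝ a (A' b) := h1.symm
        _ = inner ℝ (A' b) a := real_inner_comm _ _
    rw [this, real_inner_comm a b]
  · intro a
    have h1 := hf (A' a)
    rw [hinv'] at h1
    simp only [sub_apply, ContinuousLinearMap.id_apply, inner_sub_left]
    rw [real_inner_self_eq_norm_sq]
    have e := real_inner_comm (A' a) a
    linarith
  · intro ε hε
    obtain ⟨δ, hδ, h⟩ := local_expand hR hL hg hA hinv hε
    exact ⟨δ, hδ, fun w' g' h1 h2 => by simpa using h w' g' h1 h2⟩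

end Vale.Agent.Lib.P084V.AlexAux
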