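import Mathlib
import Vale.Agent.Lib.P084_helper82.Radial

/-!
Definitions for the proof that every finite dimensional real normed space has the Mazur-Ulam
property (see notes/P084V_blueprint.md).
-/

namespace Vale.Agent.Lib.P084V

open MeasureTheory Metric Set Filter Topology Module
open scoped ENNReal

noncomputable section

section general

variable {V : Type*} [NormedAddCommGroup V] [NormedSpace ℝ V]

/-- differentiability of the norm at `z`. -/
def DiffN (z : V) : Prop := DifferentiableAt ℝ (fun v : V => ‖v‖) z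

/-- the gradient of the norm at `z` (zero where the norm is not differentiable). -/
def gradN (z : V) : StrongDual ℝ V := fderiv ℝ (fun v : V => ‖v‖) z

/-- radial projection. -/
def unitV (z : V) : V := ‖z‖⁻¹ • z

/-- the pairs `(d, ν)` such that the line `ν + ℝ d` meets the open unit ball. -/
def Dom : Set (V × V) := {p | p.1 ≠ 0 ∧ ∃ k : ℝ, ‖p.2 + k • p.1‖ < 1}

/-- first parameter of the line `ν + ℝ d` in the closed unit ball. -/
def entryT (d ν : V) : ℝ := sInf {k : ℝ | ‖ν + k • d‖ ≤ 1}

/-- last parameter of the line `ν + ℝ d` in the closed unit ball. -/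
def exitT (d ν : V) : ℝ := sSup {k : ℝ | ‖ν + k • d‖ ≤ 1}

/-- first point of the chord through `w` in direction `u`. -/
def entryPt (u w : V) : V := w + entryT u w • u

/-- last point of the chord through `w` in direction `u`. -/
def exitPt (u w : V) : V := w + exitT u w • u

/-- the position of `w` on its chord in direction `u`, as a fraction of the chord. -/
def thetaOf (u w : V) : ℝ := - entryT u w / (exitT u w - entryT u w)

/-- direction of the chord from `x` to `y`. -/
def dirXY (x y : V) : V := ‖y - x‖⁻¹ • (y - x)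

/-- the projection along `u` onto `ker φ`. -/
def projT (φ : StrongDual ℝ V) (u : V) : V →L[ℝ] V :=
  ContinuousLinearMap.id ℝ V - ((φ u)⁻¹ • φ).smulRight u

/-- the functional equal to `γ` on `ker φ` and to `1` at `u`. -/
def liftCov (φ γ : StrongDual ℝ V) (u : V) : StrongDual ℝ V :=
  γ.comp (projT φ u) + (φ u)⁻¹ • φ

/-- second order expansion of the subdifferential of the norm at `z` with form `W`. -/
def IsAlexForm (z : V) (W : V →L[ℝ] StrongDual ℝ V) : Prop :=
  (∀ a b, W a b = W b a) ∧ (∀ a, 0 ≤ W a a) ∧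
    ∀ ε > 0, ∃ δ > 0, ∀ z', ‖z' - z‖ < δ → ∀ ν : StrongDual ℝ V, ‖ν‖ ≤ 1 → ν z' = ‖z'‖ →
      ‖ν - gradN z - W (z' - z)‖ ≤ ε * ‖z' - z‖

/-- the norm has a second order expansion at `z`. -/
def AlexAt (z : V) : Prop := z ≠ 0 ∧ DiffN z ∧ ∃ W, IsAlexForm z W

end general

section dual

variable {X : Type*} [NormedAddCommGroup X] [NormedSpace ℝ X] [FiniteDimensional ℝ X]

/-- the canonical isomorphism of a finite dimensional space with its double dual. -/
def bidual (X : Type*) [NormedAddCommGroup X] [NormedSpace ℝ X] [FiniteDimensional ℝ X] :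
    X ≃L[ℝ] StrongDual ℝ (StrongDual ℝ X) :=
  LinearEquiv.toContinuousLinearEquiv
    (LinearMap.linearEquivOfInjective (NormedSpace.inclusionInDoubleDual ℝ X).toLinearMap
      (NormedSpace.inclusionInDoubleDualLi (𝕜 := ℝ) (E := X)).injective
      (by
        have h1 : finrank ℝ (StrongDual ℝ X) = finrank ℝ X :=
          (LinearEquiv.finrank_eq (LinearMap.toContinuousLinearMap (𝕜 := ℝ) (E := X) (F' := ℝ)).symm).trans
            (Subspace.dual_finrank_eq)
        have h2 : finrank ℝ (StrongDual ℝ (StrongDual ℝ X)) = finrank ℝ (StrongDual ℝ X) :=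
          (LinearEquiv.finrank_eq (LinearMap.toContinuousLinearMap (𝕜 := ℝ)
            (E := StrongDual ℝ X) (F' := ℝ)).symm).trans (Subspace.dual_finrank_eq)
        rw [h2, h1]))

lemma bidual_apply (x : X) (ζ : StrongDual ℝ X) : bidual X x ζ = ζ x := rfl

/-- the point of the unit sphere conjugate to `η` (meaningful where the dual norm is
differentiable). -/
def dirOf (η : StrongDual ℝ X) : X := (bidual X).symm (gradN η)

/-- the covectors whose vertical line at `x` meets the open dual ball. -/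
def Dd (x : X) : Set (StrongDual ℝ X) := {ζ | ∃ k : ℝ, ‖ζ + k • gradN x‖ < 1}

/-- the dual cylinder at `x`. -/
def CylD (x : X) : Set (StrongDual ℝ X) := {ζ | ζ ∈ Dd x ∧ 0 < ζ x ∧ ζ x < 1}

/-- the lower sheet point of the dual sphere on the vertical line of `ζ` at `x`. -/
def low (x : X) (ζ : StrongDual ℝ X) : StrongDual ℝ X := ζ + entryT (gradN x) ζ • gradN x

/-- the other end of the chord starting at `x` with covector `low x ζ`. -/
def yOf (x : X) (ζ : StrongDual ℝ X) : X := exitPt (dirOf (low x ζ)) x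

/-- the length of the chord starting at `x` with covector `low x ζ`. -/
def rhoOf (x : X) (ζ : StrongDual ℝ X) : ℝ := exitT (dirOf (low x ζ)) x

end dual

section measures

variable {X : Type*} [NormedAddCommGroup X] [NormedSpace ℝ X] [FiniteDimensional ℝ X]
  [MeasurableSpace X] [BorelSpace X]

/-- the data space of chords: start, end, position on the chord, covector. -/
abbrev Dat (X : Type*) [NormedAddCommGroup X] [NormedSpace ℝ X] := X × X × ℝ × StrongDual ℝ X

/-- integral over ball times dual ball of a function of the chord through a point in the direction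
conjugate to a covector. -/
def leftInt (μ : Measure X) (μd : Measure (StrongDual ℝ X)) (Ξ : Dat X → ℝ≥0∞) : ℝ≥0∞ :=
  ∫⁻ η in closedBall (0 : StrongDual ℝ X) 1, ∫⁻ w in closedBall (0 : X) 1,
    Ξ (entryPt (dirOf η) w, exitPt (dirOf η) w, thetaOf (dirOf η) w, unitV η) ∂μ ∂μd

/-- integral over the cotangent model of the same chord data. -/
def masterInt (μ : Measure X) (μd : Measure (StrongDual ℝ X)) (Ξ : Dat X → ℝ≥0∞) : ℝ≥0∞ :=
  ∫⁻ w in closedBall (0 : X) 1, ∫⁻ ζ in CylD (unitV w),
    Ξ (unitV w, yOf (unitV w) ζ, ‖w‖ ^ finrank ℝ X, low (unitV w) ζ) *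
      ENNReal.ofReal (rhoOf (unitV w) ζ) ∂μd ∂μ

end measures

section chord

variable {X Y : Type*} [NormedAddCommGroup X] [NormedSpace ℝ X] [FiniteDimensional ℝ X]
  [NormedAddCommGroup Y] [NormedSpace ℝ Y] [FiniteDimensional ℝ Y]

/-- the derivative at position `θ` on the chord `(x, y)` of the parallel chord map. -/
def chordMap (F : X → Y) (x y : X) (θ : ℝ) : X →L[ℝ] Y :=
  (1 - θ) • (fderiv ℝ F x).comp (projT (gradN x) (dirXY x y)) +
    θ • (fderiv ℝ F y).comp (projT (gradN y) (dirXY x y)) +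
      ((gradN x (dirXY x y))⁻¹ • gradN x).smulRight (‖y - x‖⁻¹ • (F y - F x))

/-- the Jacobian of `chordMap`, the volumes being compared by `ι`. -/
def chordJac (ι : X ≃L[ℝ] Y) (F : X → Y) (x y : X) (θ : ℝ) : ℝ :=
  |((ι.symm : Y →L[ℝ] X).comp (chordMap F x y θ)).det|

/-- the Jacobian of a linear map, the volumes being compared by `ι`. -/
def jacL (ι : X ≃L[ℝ] Y) (L : X →L[ℝ] Y) : ℝ := |((ι.symm : Y →L[ℝ] X).comp L).det|

/-- the map of the duals induced by `ι`. -/
def dualInv (ι : X ≃L[ℝ] Y) : StrongDual ℝ X ≃L[ℝ] StrongDual ℝ Y :=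
  ι.arrowCongr (ContinuousLinearEquiv.refl ℝ ℝ)

end chord

/-- The global data: radial extensions `F`, `G` of a sphere isometry and its inverse, and
normalised Haar measures on the spaces and their duals. -/
structure Setup (X Y : Type*) [NormedAddCommGroup X] [NormedSpace ℝ X] [FiniteDimensional ℝ X]
    [MeasurableSpace X] [BorelSpace X] [NormedAddCommGroup Y] [NormedSpace ℝ Y]
    [FiniteDimensional ℝ Y] [MeasurableSpace Y] [BorelSpace Y] where
  F : X → Y
  G : Y → X
  radF : P084_helper82.RadIso F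
  radG : P084_helper82.RadIso G
  gf : ∀ z, G (F z) = z
  fg : ∀ y, F (G y) = y
  dim2 : 2 ≤ finrank ℝ X
  ι : X ≃L[ℝ] Y
  μ : Measure X
  μ' : Measure Y
  μd : Measure (StrongDual ℝ X)
  μd' : Measure (StrongDual ℝ Y)
  haar1 : μ.IsAddHaarMeasure
  haar2 : μ'.IsAddHaarMeasure
  haar3 : μd.IsAddHaarMeasure
  haar4 : μd'.IsAddHaarMeasure
  hμ' : μ' = μ.map ι
  hμd' : μd' = μd.map (dualInv ι)

attribute [instance] Setup.haar1 Setup.haar2 Setup.haar3 Setup.haar4

namespace Setup

variable {X Y : Type*} [NormedAddCommGroup X] [NormedSpace ℝ X] [FiniteDimensional ℝ X]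
  [MeasurableSpace X] [BorelSpace X] [NormedAddCommGroup Y] [NormedSpace ℝ Y]
  [FiniteDimensional ℝ Y] [MeasurableSpace Y] [BorelSpace Y] (S : Setup X Y)

/-- the points where everything is differentiable. -/
def GoodS (z : X) : Prop :=
  z ≠ 0 ∧ DiffN z ∧ DifferentiableAt ℝ S.F z ∧ DiffN (S.F z) ∧ DifferentiableAt ℝ S.G (S.F z)

/-- the covector at `F x` corresponding to `low x ζ`. -/
def lowY (x : X) (ζ : StrongDual ℝ X) : StrongDual ℝ Y :=
  low (S.F x) (ζ.comp (fderiv ℝ S.G (S.F x)))

/-- Jacobian of the chord map of `F`. -/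
def aF (x y : X) (θ : ℝ) : ℝ := chordJac S.ι S.F x y θ

/-- Jacobian of the chord map of `G`. -/
def aG (x' y' : Y) (θ : ℝ) : ℝ := chordJac S.ι.symm S.G x' y' θ

/-- the Jacobian of `F` at `z`. -/
def J (z : X) : ℝ := jacL S.ι (fderiv ℝ S.F z)

/-- the master integral of a function of the `Y` data of a chord, on the `X` cotangent model. -/
def masterY (Ξ' : Dat Y → ℝ≥0∞) : ℝ≥0∞ :=
  ∫⁻ w in closedBall (0 : X) 1, ∫⁻ ζ in CylD (unitV w),
    Ξ' (S.F (unitV w), S.F (yOf (unitV w) ζ), ‖w‖ ^ finrank ℝ X, S.lowY (unitV w) ζ) *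
      ENNReal.ofReal (rhoOf (unitV w) ζ) ∂S.μd ∂S.μ

/-- pointwise Lipschitz behaviour at `x` of the derivatives of `F` and of the norm. -/
def PLipAt (x : X) : Prop :=
  ∃ C δ : ℝ, 0 < δ ∧ ∀ᵐ w ∂S.μ, ‖unitV w - x‖ < δ →
    ‖fderiv ℝ S.F (unitV w) - fderiv ℝ S.F x‖ ≤ C * ‖unitV w - x‖ ∧
      ‖gradN (unitV w) - gradN x‖ ≤ C * ‖unitV w - x‖

/-- a generic chord: `x` start point, `ζ` in the dual cylinder. -/
structure GenPt (x : X) (ζ : StrongDual ℝ X) : Prop where
  norm_x : ‖x‖ = 1
  good_x : S.GoodS x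
  plip : S.PLipAt x
  mem : ζ ∈ CylD x
  good_y : S.GoodS (yOf x ζ)
  alex : AlexAt (low x ζ)
  alex' : AlexAt (S.lowY x ζ)

/-- the same data with the roles of the two spaces exchanged. -/
def symm : Setup Y X where
  F := S.G
  G := S.F
  radF := S.radG
  radG := S.radF
  gf := S.fg
  fg := S.gf
  dim2 := by rw [← S.ι.toLinearEquiv.finrank_eq]; exact S.dim2
  ι := S.ι.symm
  μ := S.μ'
  μ' := S.μ
  μd := S.μd'
  μd' := S.μd
  haar1 := S.haar2
  haar2 := S.haar1
  haar3 := S.haar4
  haar4 := S.haar3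
  hμ' := by
    rw [S.hμ', Measure.map_map S.ι.symm.continuous.measurable S.ι.continuous.measurable]
    have : (S.ι.symm ∘ S.ι : X → X) = id := by
      funext z; simp
    rw [this, Measure.map_id]
  hμd' := by
    rw [S.hμd', Measure.map_map (dualInv S.ι.symm).continuous.measurable
      (dualInv S.ι).continuous.measurable]
    have : ((dualInv S.ι.symm) ∘ (dualInv S.ι) : StrongDual ℝ X → StrongDual ℝ X) = id := by
      funext ν
      ext v
      simp [dualInv]
    rw [this, Measure.map_id]

end Setup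

end

end Vale.Agent.Lib.P084V
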