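import Mathlib
import Vale.Agent.Lib.P084V.Defs

/-!
One line through the unit ball (blueprint section 1).
-/

namespace Vale.Agent.Lib.P084V

open Metric Set Filter Topology

variable {V : Type*} [NormedAddCommGroup V] [NormedSpace ℝ V]

lemma mem_Dom {d ν : V} {k0 : ℝ} (hd : d ≠ 0) (h : ‖ν + k0 • d‖ < 1) : (d, ν) ∈ (Dom : Set (V × V)) :=
  ⟨hd, k0, h⟩

/-- basic description of the chord of a line meeting the open ball. -/
theorem lc_basic {d ν : V} (hp : (d, ν) ∈ (Dom : Set (V × V))) :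
    entryT d ν < exitT d ν ∧ ‖ν + entryT d ν • d‖ = 1 ∧ ‖ν + exitT d ν • d‖ = 1 ∧
      (∀ k : ℝ, ‖ν + k • d‖ < 1 ↔ entryT d ν < k ∧ k < exitT d ν) ∧
      (∀ k : ℝ, ‖ν + k • d‖ ≤ 1 ↔ entryT d ν ≤ k ∧ k ≤ exitT d ν) := by
  sorry

theorem isOpen_Dom : IsOpen (Dom : Set (V × V)) := by
  sorry

theorem entryT_add_smul {d ν : V} (hp : (d, ν) ∈ (Dom : Set (V × V))) (s : ℝ) :
    entryT d (ν + s • d) = entryT d ν - s := by
  sorry

theorem exitT_add_smul {d ν : V} (hp : (d, ν) ∈ (Dom : Set (V × V))) (s : ℝ) :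
    exitT d (ν + s • d) = exitT d ν - s := by
  sorry

theorem exitT_neg_arg {d ν : V} (hp : (d, ν) ∈ (Dom : Set (V × V))) :
    exitT d ν = - entryT d (-ν) := by
  sorry

theorem entryT_neg_dir {d ν : V} (hp : (d, ν) ∈ (Dom : Set (V × V))) :
    entryT (-d) ν = - exitT d ν := by
  sorry

theorem exitT_neg_dir {d ν : V} (hp : (d, ν) ∈ (Dom : Set (V × V))) :
    exitT (-d) ν = - entryT d ν := by
  sorry

/-- joint local Lipschitz property of the ends of the chord. -/
theorem lc_lipschitz {d0 ν0 : V} (hp : (d0, ν0) ∈ (Dom : Set (V × V))) :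
    ∃ C δ : ℝ, 0 < C ∧ 0 < δ ∧ ball (d0, ν0) δ ⊆ (Dom : Set (V × V)) ∧
      ∀ p ∈ ball (d0, ν0) δ, ∀ q ∈ ball (d0, ν0) δ,
        |entryT p.1 p.2 - entryT q.1 q.2| ≤ C * ‖p - q‖ ∧
          |exitT p.1 p.2 - exitT q.1 q.2| ≤ C * ‖p - q‖ := by
  sorry

theorem continuousOn_entryT : ContinuousOn (fun p : V × V => entryT p.1 p.2) Dom := by
  sorry

theorem continuousOn_exitT : ContinuousOn (fun p : V × V => exitT p.1 p.2) Dom := by
  sorry

/-- slope at the exit point. -/
theorem slope_exit {d ν : V} (hp : (d, ν) ∈ (Dom : Set (V × V))) {g : StrongDual ℝ V}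
    (hg : ‖g‖ ≤ 1) (hg1 : g (ν + exitT d ν • d) = 1) : 0 < g d := by
  sorry

/-- slope at the entry point. -/
theorem slope_entry {d ν : V} (hp : (d, ν) ∈ (Dom : Set (V × V))) {g : StrongDual ℝ V}
    (hg : ‖g‖ ≤ 1) (hg1 : g (ν + entryT d ν • d) = 1) : g d < 0 := by
  sorry

/-- derivative of the exit parameter, jointly in the direction and the base point. -/
theorem hasFDerivAt_exitT {d ν : V} (hp : (d, ν) ∈ (Dom : Set (V × V))) {g : StrongDual ℝ V}
    (hg : HasFDerivAt (fun v : V => ‖v‖) g (ν + exitT d ν • d)) :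
    HasFDerivAt (fun p : V × V => exitT p.1 p.2)
      ((-(g d)⁻¹) • (g.comp (ContinuousLinearMap.snd ℝ V V) +
        exitT d ν • g.comp (ContinuousLinearMap.fst ℝ V V))) (d, ν) := by
  sorry

/-- derivative of the entry parameter, jointly in the direction and the base point. -/
theorem hasFDerivAt_entryT {d ν : V} (hp : (d, ν) ∈ (Dom : Set (V × V))) {g : StrongDual ℝ V}
    (hg : HasFDerivAt (fun v : V => ‖v‖) g (ν + entryT d ν • d)) :
    HasFDerivAt (fun p : V × V => entryT p.1 p.2)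
      ((-(g d)⁻¹) • (g.comp (ContinuousLinearMap.snd ℝ V V) +
        entryT d ν • g.comp (ContinuousLinearMap.fst ℝ V V))) (d, ν) := by
  sorry

/-- derivative of the exit point for a fixed direction. -/
theorem hasFDerivAt_exitPt {u ν : V} (hp : (u, ν) ∈ (Dom : Set (V × V))) {g : StrongDual ℝ V}
    (hg : HasFDerivAt (fun v : V => ‖v‖) g (exitPt u ν)) :
    HasFDerivAt (exitPt u) (projT g u) ν := by
  sorry

/-- derivative of the entry point for a fixed direction. -/
theorem hasFDerivAt_entryPt {u ν : V} (hp : (u, ν) ∈ (Dom : Set (V × V))) {g : StrongDual ℝ V}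
    (hg : HasFDerivAt (fun v : V => ‖v‖) g (entryPt u ν)) :
    HasFDerivAt (entryPt u) (projT g u) ν := by
  sorry

/-- chord data at a sphere point `x` in an inward direction `u`. -/
theorem chord_at_sphere {x u : V} (hx : ‖x‖ = 1) (hu : ‖u‖ = 1) {e : ℝ} (he : 0 < e)
    (hin : ‖x + e • u‖ < 1) :
    (u, x) ∈ (Dom : Set (V × V)) ∧ entryT u x = 0 ∧ 0 < exitT u x ∧ ‖exitPt u x‖ = 1 ∧
      exitPt u x ≠ x ∧ ‖exitPt u x - x‖ = exitT u x ∧ dirXY x (exitPt u x) = u ∧
      entryPt u x = x ∧ (∀ s, 0 < s → s < exitT u x → ‖x + s • u‖ < 1) := by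
  sorry

/-- a point with `‖x + e • u‖ < 1` for some positive `e` gives also smaller `e`. -/
theorem inward_of_grad {x u : V} (hx : ‖x‖ = 1) (hd : DiffN x) (hu : gradN x u < 0) :
    ∃ e : ℝ, 0 < e ∧ ‖x + e • u‖ < 1 := by
  sorry

theorem grad_neg_of_inward {x u : V} (hx : ‖x‖ = 1) (hd : DiffN x) {e : ℝ} (he : 0 < e)
    (hin : ‖x + e • u‖ < 1) : gradN x u < 0 := by
  sorry

/-- chord through an interior point of the open ball. -/
theorem chord_at_interior {u w : V} (hu : ‖u‖ = 1) (hw : ‖w‖ < 1) :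
    (u, w) ∈ (Dom : Set (V × V)) ∧ entryT u w < 0 ∧ 0 < exitT u w ∧ ‖entryPt u w‖ = 1 ∧
      ‖exitPt u w‖ = 1 ∧ 0 < thetaOf u w ∧ thetaOf u w < 1 ∧
      w = (1 - thetaOf u w) • entryPt u w + thetaOf u w • exitPt u w ∧
      exitPt u w - entryPt u w = (exitT u w - entryT u w) • u ∧
      entryPt u (entryPt u w) = entryPt u w ∧ exitPt u (entryPt u w) = exitPt u w := by
  sorry

/-- the two ends of a chord are exchanged by reversing the direction. -/
theorem exitPt_neg_dir {u w : V} (hp : (u, w) ∈ (Dom : Set (V × V))) :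
    exitPt (-u) w = entryPt u w ∧ entryPt (-u) w = exitPt u w := by
  sorry

end Vale.Agent.Lib.P084V
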