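import Mathlib
import Vale.Agent.Lib.P084V.LineCross

/-!
Differentiability of the norm, the dual norm, the dual fibres (blueprint sections 0, 3).
-/

namespace Vale.Agent.Lib.P084V

open MeasureTheory Metric Set Filter Topology Module

section general

variable {V : Type*} [NormedAddCommGroup V] [NormedSpace ℝ V]

lemma DiffN.hasFDerivAt {z : V} (h : DiffN z) : HasFDerivAt (fun v : V => ‖v‖) (gradN z) z :=
  DifferentiableAt.hasFDerivAt h

lemma norm_unitV {z : V} (hz : z ≠ 0) : ‖unitV z‖ = 1 := by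
  sorry

lemma unitV_of_norm {x : V} (hx : ‖x‖ = 1) : unitV x = x := by
  sorry

lemma norm_smul_unitV (z : V) : ‖z‖ • unitV z = z := by
  sorry

lemma unitV_smul {t : ℝ} (ht : 0 < t) (z : V) : unitV (t • z) = unitV z := by
  sorry

lemma unitV_neg (z : V) : unitV (-z) = - unitV z := by
  sorry

theorem gradN_self {z : V} (hz : z ≠ 0) (h : DiffN z) : gradN z z = ‖z‖ := by
  sorry

theorem norm_gradN_le (z : V) : ‖gradN z‖ ≤ 1 := by
  sorry

theorem norm_gradN {z : V} (hz : z ≠ 0) (h : DiffN z) : ‖gradN z‖ = 1 := by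
  sorry

/-- uniqueness of the norming functional at a point of differentiability. -/
theorem gradN_eq_of_norming {z : V} (hz : z ≠ 0) (h : DiffN z) {ν : StrongDual ℝ V} (hν : ‖ν‖ ≤ 1)
    (hνz : ν z = ‖z‖) : ν = gradN z := by
  sorry

theorem diffN_smul {t : ℝ} (ht : 0 < t) (z : V) : DiffN (t • z) ↔ DiffN z := by
  sorry

theorem gradN_smul {t : ℝ} (ht : 0 < t) (z : V) : gradN (t • z) = gradN z := by
  sorry

theorem diffN_unitV {z : V} (hz : z ≠ 0) : DiffN (unitV z) ↔ DiffN z := by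
  sorry

theorem gradN_unitV {z : V} (hz : z ≠ 0) : gradN (unitV z) = gradN z := by
  sorry

theorem diffN_neg (z : V) : DiffN (-z) ↔ DiffN z := by
  sorry

theorem gradN_neg (z : V) : gradN (-z) = - gradN z := by
  sorry

/-- the radial projection of a tangent line, to first order. -/
theorem hasDerivAt_unit_curve {x τ : V} (hx : ‖x‖ = 1) (h : DiffN x) (hτ : gradN x τ = 0) :
    HasDerivAt (fun e : ℝ => unitV (x + e • τ)) τ 0 := by
  sorry

theorem projT_apply (φ : StrongDual ℝ V) (u v : V) :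
    projT φ u v = v - (φ v / φ u) • u := by
  sorry

theorem projT_self {φ : StrongDual ℝ V} {u : V} (hu : φ u ≠ 0) : projT φ u u = 0 := by
  sorry

theorem apply_projT {φ : StrongDual ℝ V} {u : V} (hu : φ u ≠ 0) (v : V) : φ (projT φ u v) = 0 := by
  sorry

theorem projT_of_ker {φ : StrongDual ℝ V} {u v : V} (hv : φ v = 0) : projT φ u v = v := by
  sorry

theorem liftCov_apply_dir {φ γ : StrongDual ℝ V} {u : V} (hu : φ u ≠ 0) : liftCov φ γ u u = 1 := by
  sorry

theorem liftCov_of_ker {φ γ : StrongDual ℝ V} {u v : V} (hv : φ v = 0) : liftCov φ γ u v = γ v := by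
  sorry

/-- a functional with the right values on `ker φ` and at `u` is the lift. -/
theorem eq_liftCov {φ γ ξ : StrongDual ℝ V} {u : V} (hu : φ u ≠ 0) (h1 : ξ u = 1)
    (h2 : ∀ v, φ v = 0 → ξ v = γ v) : ξ = liftCov φ γ u := by
  sorry

variable [FiniteDimensional ℝ V] [MeasurableSpace V] [BorelSpace V]

theorem measurable_gradN : Measurable (gradN : V → StrongDual ℝ V) := by
  sorry

theorem measurableSet_diffN : MeasurableSet {z : V | DiffN z} := by
  sorry

theorem ae_diffN (μ : Measure V) [μ.IsAddHaarMeasure] : ∀ᵐ z ∂μ, DiffN z := by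
  sorry

theorem ae_ne_zero (μ : Measure V) [μ.IsAddHaarMeasure] [Nontrivial V] : ∀ᵐ z ∂μ, z ≠ 0 := by
  sorry

theorem measurable_unitV : Measurable (unitV : V → V) := by
  sorry

end general

section dual

variable {X : Type*} [NormedAddCommGroup X] [NormedSpace ℝ X] [FiniteDimensional ℝ X]

theorem norm_bidual (x : X) : ‖bidual X x‖ = ‖x‖ := by
  sorry

/-- the gradient of the dual norm is always evaluation at `dirOf`. -/
theorem gradN_dual_apply (η ζ : StrongDual ℝ X) : gradN η ζ = ζ (dirOf η) := by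
  sorry

theorem dirOf_spec {η : StrongDual ℝ X} (hη : η ≠ 0) (h : DiffN η) :
    ‖dirOf η‖ = 1 ∧ η (dirOf η) = ‖η‖ := by
  sorry

theorem dirOf_unique {η : StrongDual ℝ X} (hη : η ≠ 0) (h : DiffN η) {u : X} (hu : ‖u‖ ≤ 1)
    (huη : η u = ‖η‖) : u = dirOf η := by
  sorry

theorem dirOf_smul {t : ℝ} (ht : 0 < t) (η : StrongDual ℝ X) : dirOf (t • η) = dirOf η := by
  sorry

theorem dirOf_unitV {η : StrongDual ℝ X} (hη : η ≠ 0) : dirOf (unitV η) = dirOf η := by
  sorry

theorem exists_norming [Nontrivial X] (η : StrongDual ℝ X) : ∃ u : X, ‖u‖ = 1 ∧ η u = ‖η‖ := by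
  sorry

/-- the dual norm as a supremum: an upper bound on the unit sphere bounds the norm. -/
theorem opNorm_le_of_sphere {η : StrongDual ℝ X} {c : ℝ} (hc : 0 ≤ c)
    (h : ∀ v : X, ‖v‖ = 1 → η v ≤ c) : ‖η‖ ≤ c := by
  sorry

theorem measurable_dirOf [MeasurableSpace X] [BorelSpace X] :
    Measurable (dirOf : StrongDual ℝ X → X) := by
  sorry

section fibres

variable {x : X}

/-- `bidual x` and `gradN x` form a legal setting of the projection lemma in the dual. -/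
theorem setting_dual (hx : ‖x‖ = 1) (hd : DiffN x) :
    ‖gradN x‖ = 1 ∧ ‖bidual X x‖ = 1 ∧ bidual X x (gradN x) = 1 := by
  sorry

/-- the vertical line at `x` meets the open dual ball iff the restriction to the tangent hyperplane
has norm less than one. -/
theorem memDd_iff (hx : ‖x‖ = 1) (hd : DiffN x) {ζ : StrongDual ℝ X} :
    ζ ∈ Dd x ↔ ∃ c : ℝ, c < 1 ∧ ∀ v, gradN x v = 0 → ζ v ≤ c * ‖v‖ := by
  sorry

theorem mem_Dom_of_Dd (hx : ‖x‖ = 1) (hd : DiffN x) {ζ : StrongDual ℝ X} (hζ : ζ ∈ Dd x) :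
    (gradN x, ζ) ∈ (Dom : Set (StrongDual ℝ X × StrongDual ℝ X)) := by
  sorry

theorem isOpen_Dd (hx : ‖x‖ = 1) (hd : DiffN x) : IsOpen (Dd x) := by
  sorry

theorem norm_low (hx : ‖x‖ = 1) (hd : DiffN x) {ζ : StrongDual ℝ X} (hζ : ζ ∈ Dd x) :
    ‖low x ζ‖ = 1 := by
  sorry

theorem low_add_smul (hx : ‖x‖ = 1) (hd : DiffN x) {ζ : StrongDual ℝ X} (hζ : ζ ∈ Dd x) (s : ℝ) :
    low x (ζ + s • gradN x) = low x ζ := by
  sorry

theorem low_apply_of_ker {ζ : StrongDual ℝ X} {v : X} (hv : gradN x v = 0) : low x ζ v = ζ v := by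
  sorry

/-- a conjugate point of the lower sheet point points inward at `x`. -/
theorem grad_neg_of_low (hx : ‖x‖ = 1) (hd : DiffN x) {ζ : StrongDual ℝ X} (hζ : ζ ∈ Dd x) {u : X}
    (hu : ‖u‖ ≤ 1) (h1 : low x ζ u = 1) : gradN x u < 0 := by
  sorry

/-- characterisation of the lower sheet point by its restriction and an inward conjugate point. -/
theorem eq_low_of_sheet (hx : ‖x‖ = 1) (hd : DiffN x) {ζ ξ : StrongDual ℝ X} (hζ : ζ ∈ Dd x)
    (hξ : ‖ξ‖ ≤ 1) (hres : ∀ v, gradN x v = 0 → ξ v = ζ v) {u : X} (hu : ‖u‖ ≤ 1) (h1 : ξ u = 1)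
    (hin : gradN x u < 0) : ξ = low x ζ := by
  sorry

/-- the chord at `x` with covector `low x ζ`. -/
theorem chord_of_low (hx : ‖x‖ = 1) (hd : DiffN x) {ζ : StrongDual ℝ X} (hζ : ζ ∈ Dd x) {u : X}
    (hu : ‖u‖ = 1) (h1 : low x ζ u = 1) :
    gradN x u < 0 ∧ (u, x) ∈ (Dom : Set (X × X)) ∧ entryT u x = 0 ∧ 0 < exitT u x ∧
      ‖exitPt u x‖ = 1 ∧ exitPt u x ≠ x ∧ ‖exitPt u x - x‖ = exitT u x ∧
      dirXY x (exitPt u x) = u := by
  sorry

/-- lemma 5.2b of the blueprint. -/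
theorem res_of_dirOf (hx : ‖x‖ = 1) (hd : DiffN x) {ξ : StrongDual ℝ X} (hξ : ‖ξ‖ = 1) (hξd : DiffN ξ)
    (hφ : gradN x (dirOf ξ) ≠ 0) : ∃ c : ℝ, c < 1 ∧ ∀ v, gradN x v = 0 → ξ v ≤ c * ‖v‖ := by
  sorry

end fibres

end dual

end Vale.Agent.Lib.P084V
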