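import Mathlib
import Vale.Agent.Lib.P084V.NormDiff
import Vale.Agent.Lib.P084V.AlexandrovAux

/-!
Second order expansion of the norm at almost every point (blueprint section 8.1).
-/

namespace Vale.Agent.Lib.P084V

open MeasureTheory Metric Set Filter Topology Module

variable {V : Type*} [NormedAddCommGroup V] [NormedSpace ℝ V] [FiniteDimensional ℝ V]

/-- scaling an Alexandrov point. -/
theorem AlexAt.smul_aux {t : ℝ} (ht : 0 < t) {z : V} (h : AlexAt z) : AlexAt (t • z) := by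
  obtain ⟨hz, hd, W, hsym, hpsd, hW⟩ := h
  refine ⟨smul_ne_zero ht.ne' hz, (diffN_smul ht z).2 hd, t⁻¹ • W, ?_, ?_, ?_⟩
  · intro a b
    simp [hsym a b]
  · intro a
    have := hpsd a
    simp only [smul_apply, smul_eq_mul]
    positivity
  · intro ε hε
    obtain ⟨δ, hδ, hb⟩ := hW (ε * t) (by positivity)
    refine ⟨t * δ, by positivity, fun z' hz' ν hν hνz => ?_⟩
    have e1 : t⁻¹ • z' - z = t⁻¹ • (z' - t • z) := by rw [smul_sub, inv_smul_smul₀ ht.ne']
    have hn : ‖t⁻¹ • z' - z‖ = t⁻¹ * ‖z' - t • z‖ := by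
      rw [e1, norm_smul, norm_inv, Real.norm_eq_abs, abs_of_pos ht]
    have h1 : ‖t⁻¹ • z' - z‖ < δ := by
      rw [hn]
      exact (inv_mul_lt_iff₀ ht).2 hz'
    have h2 : ν (t⁻¹ • z') = ‖t⁻¹ • z'‖ := by
      rw [map_smul, hνz, norm_smul, norm_inv, Real.norm_eq_abs, abs_of_pos ht, smul_eq_mul]
    have h3 := hb (t⁻¹ • z') h1 ν hν h2
    rw [gradN_smul ht]
    have e2 : (t⁻¹ • W) (z' - t • z) = W (t⁻¹ • z' - z) := by
      rw [e1, map_smul, smul_apply]
    rw [e2]
    refine h3.trans (le_of_eq ?_)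
    rw [hn]
    field_simp

/-- invariance under positive scaling. -/
theorem alexAt_smul {t : ℝ} (ht : 0 < t) (z : V) : AlexAt (t • z) ↔ AlexAt z := by
  refine ⟨fun h => ?_, AlexAt.smul_aux ht⟩
  have := AlexAt.smul_aux (inv_pos.2 ht) h
  rwa [inv_smul_smul₀ ht.ne'] at this

theorem alexAt_unitV {z : V} (hz : z ≠ 0) : AlexAt (unitV z) ↔ AlexAt z :=
  alexAt_smul (inv_pos.2 (norm_pos_iff.2 hz)) z

/-- a convenient consequence: the norm gradient is pointwise Lipschitz at an Alexandrov point. -/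
theorem AlexAt.pointwise_lipschitz {z : V} (h : AlexAt z) :
    ∃ C δ : ℝ, 0 < δ ∧ ∀ z', ‖z' - z‖ < δ → ∀ ν : StrongDual ℝ V, ‖ν‖ ≤ 1 → ν z' = ‖z'‖ →
      ‖ν - gradN z‖ ≤ C * ‖z' - z‖ := by
  obtain ⟨-, -, W, -, -, hW⟩ := h
  obtain ⟨δ, hδ, hb⟩ := hW 1 one_pos
  refine ⟨‖W‖ + 1, δ, hδ, fun z' hz' ν hν hνz => ?_⟩
  have h1 := hb z' hz' ν hν hνz
  have h2 := W.le_opNorm (z' - z)
  have h3 : ‖ν - gradN z‖ ≤ ‖ν - gradN z - W (z' - z)‖ + ‖W (z' - z)‖ := by
    have := norm_add_le (ν - gradN z - W (z' - z)) (W (z' - z))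
    simpa using this
  nlinarith

variable [MeasurableSpace V] [BorelSpace V] [Nontrivial V]

/-- transfer of the Alexandrov-Mignot theorem through a linear isomorphism. -/
theorem ae_alexAt_aux {E : Type*} [NormedAddCommGroup E] [InnerProductSpace ℝ E]
    [FiniteDimensional ℝ E] [MeasurableSpace E] [BorelSpace E] (e : V ≃L[ℝ] E)
    (μ : Measure V) [μ.IsAddHaarMeasure] : ∀ᵐ z ∂μ, AlexAt z := by
  let es : E →L[ℝ] V := (e.symm : E →L[ℝ] V)
  let el : V →L[ℝ] E := (e : V →L[ℝ] E)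
  have hes : ∀ a, es a = e.symm a := fun a => rfl
  have hel : ∀ a, el a = e a := fun a => rfl
  let φ : E → ℝ := fun w => ‖es w‖
  let gOf : StrongDual ℝ V → E := fun ν => (InnerProductSpace.toDual ℝ E).symm (ν.comp es)
  have hgOf : ∀ ν a, inner ℝ (gOf ν) a = ν (es a) := fun ν a => by
    simp only [gOf]
    rw [InnerProductSpace.toDual_symm_apply]
    rfl
  have hsub_of : ∀ (z : V) (ν : StrongDual ℝ V), ‖ν‖ ≤ 1 → ν z = ‖z‖ →
      AlexAux.IsSub φ (e z) (gOf ν) := by
    intro z ν hν hνz v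
    rw [hgOf]
    have e1 : es (v - e z) = es v - z := by
      rw [map_sub, hes (e z), e.symm_apply_apply]
    have e2 : φ (e z) = ‖z‖ := by
      simp only [φ]
      rw [hes, e.symm_apply_apply]
    rw [e1, e2, map_sub, hνz]
    have h1 : ν (es v) ≤ ‖ν‖ * ‖es v‖ := (le_abs_self _).trans (ν.le_opNorm _)
    have h2 : ‖ν‖ * ‖es v‖ ≤ 1 * ‖es v‖ := mul_le_mul_of_nonneg_right hν (norm_nonneg _)
    simp only [φ]
    linarith
  have hc : ConvexOn ℝ univ φ := by
    refine ⟨convex_univ, fun a _ b _ s t hs ht _ => ?_⟩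
    simp only [φ, smul_eq_mul]
    rw [map_add, map_smul, map_smul]
    refine (norm_add_le _ _).trans ?_
    rw [norm_smul, norm_smul, Real.norm_eq_abs, Real.norm_eq_abs, abs_of_nonneg hs,
      abs_of_nonneg ht]
  have hL : LipschitzWith ‖es‖₊ φ := by
    refine LipschitzWith.of_dist_le_mul fun a b => ?_
    simp only [φ]
    rw [Real.dist_eq, dist_eq_norm, coe_nnnorm]
    refine (abs_norm_sub_norm_le _ _).trans ?_
    rw [← map_sub]
    exact es.le_opNorm _
  have h0 : ∀ w, 0 ≤ φ w := fun w => norm_nonneg _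
  have hsub : ∀ w, ∃ g, AlexAux.IsSub φ w g := by
    intro w
    obtain ⟨ν, hν, hνz⟩ := exists_dual_vector'' ℝ (e.symm w)
    refine ⟨gOf ν, ?_⟩
    have := hsub_of (e.symm w) ν hν (by simpa using hνz)
    rwa [e.apply_symm_apply] at this
  have : (μ.map e).IsAddHaarMeasure := e.isAddHaarMeasure_map μ
  have hmig := AlexAux.mignot hc hL h0 hsub (μ.map e)
  have hae := ae_of_ae_map e.continuous.aemeasurable hmig
  filter_upwards [hae, ae_diffN μ, ae_ne_zero μ] with z hz hd hz0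
  obtain ⟨g, W, hg, hsym, hpsd, hexp⟩ := hz
  -- the subgradient at `z` is the gradient of the norm
  have hgrad : gOf (gradN z) = g := by
    have h1 := hsub_of z (gradN z) (norm_gradN_le z) (gradN_self hz0 hd)
    obtain ⟨δ, hδ, hb⟩ := hexp 1 one_pos
    have h2 := hb (e z) (gOf (gradN z)) (by simpa using hδ) h1
    simp only [sub_self, map_zero, norm_zero, mul_zero, sub_zero] at h2
    exact sub_eq_zero.1 (norm_le_zero_iff.1 h2)
  -- the form on `V`
  let WV : V →L[ℝ] StrongDual ℝ V := LinearMap.toContinuousLinearMap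
    { toFun := fun a => (innerSL ℝ (W (el a))).comp el
      map_add' := fun a b => by
        ext c
        simp
      map_smul' := fun t a => by
        ext c
        simp }
  have hWV : ∀ a b, WV a b = inner ℝ (W (el a)) (el b) := fun a b => by
    simp [WV]
  refine ⟨hz0, hd, WV, ?_, ?_, ?_⟩
  · intro a b
    rw [hWV, hWV]
    exact hsym _ _
  · intro a
    rw [hWV]
    exact hpsd _
  · intro ε hε
    set c := ‖el‖ + 1 with hc'
    have hc0 : 0 < c := by positivity
    obtain ⟨δ, hδ, hb⟩ := hexp (ε / c ^ 2) (by positivity)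
    refine ⟨δ / c, by positivity, fun z' hz' ν hν hνz => ?_⟩
    have h1 : ‖e z' - e z‖ ≤ c * ‖z' - z‖ := by
      have : e z' - e z = el (z' - z) := by rw [map_sub]; rfl
      rw [this]
      refine (el.le_opNorm _).trans ?_
      gcongr
      linarith
    have h2 : ‖e z' - e z‖ < δ := by
      refine lt_of_le_of_lt h1 ?_
      rwa [lt_div_iff₀' hc0] at hz'
    have h3 := hb (e z') (gOf ν) h2 (hsub_of z' ν hν hνz)
    refine ContinuousLinearMap.opNorm_le_bound _ (by positivity) fun b => ?_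
    have e1 : (ν - gradN z - WV (z' - z)) b
        = inner ℝ (gOf ν - g - W (e z' - e z)) (el b) := by
      have e3 : e z' - e z = el (z' - z) := by rw [map_sub]; rfl
      rw [e3, inner_sub_left, inner_sub_left, ← hgrad, hgOf, hgOf, ← hWV]
      have e4 : es (el b) = b := e.symm_apply_apply b
      rw [e4]
      simp
    rw [e1, Real.norm_eq_abs]
    have h4 := abs_real_inner_le_norm (gOf ν - g - W (e z' - e z)) (el b)
    have h5 : ‖el b‖ ≤ c * ‖b‖ := by
      refine (el.le_opNorm _).trans ?_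
      gcongr
      linarith
    calc |inner ℝ (gOf ν - g - W (e z' - e z)) (el b)|
        ≤ ‖gOf ν - g - W (e z' - e z)‖ * ‖el b‖ := h4
      _ ≤ (ε / c ^ 2 * (c * ‖z' - z‖)) * (c * ‖b‖) := by
          have : ‖gOf ν - g - W (e z' - e z)‖ ≤ ε / c ^ 2 * (c * ‖z' - z‖) :=
            h3.trans (by gcongr)
          gcongr
      _ = ε * ‖z' - z‖ * ‖b‖ := by field_simp

/-- Alexandrov theorem for the norm, in the strong form of Mignot. -/
theorem ae_alexAt (μ : Measure V) [μ.IsAddHaarMeasure] : ∀ᵐ z ∂μ, AlexAt z :=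
  ae_alexAt_aux (toEuclidean : V ≃L[ℝ] EuclideanSpace ℝ (Fin (finrank ℝ V))) μ

end Vale.Agent.Lib.P084V
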