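import Mathlib
import Vale.Agent.Lib.P084V.NormDiff

/-!
Basic facts on the global data: a.e. properties, derivative identities (blueprint section 0).
-/

namespace Vale.Agent.Lib.P084V

open MeasureTheory Metric Set Filter Topology Module

namespace Setup

variable {X Y : Type*} [NormedAddCommGroup X] [NormedSpace ℝ X] [FiniteDimensional ℝ X]
  [MeasurableSpace X] [BorelSpace X] [NormedAddCommGroup Y] [NormedSpace ℝ Y]
  [FiniteDimensional ℝ Y] [MeasurableSpace Y] [BorelSpace Y] (S : Setup X Y)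

lemma norm_F (z : X) : ‖S.F z‖ = ‖z‖ := S.radF.norm_eq z

lemma F_smul {t : ℝ} (ht : 0 < t) (z : X) : S.F (t • z) = t • S.F z := S.radF.hom t z ht

lemma F_neg (z : X) : S.F (-z) = - S.F z := S.radF.odd z

lemma F_zero : S.F 0 = 0 := S.radF.map_zero

lemma lipschitz_F : LipschitzWith 3 S.F := S.radF.lipschitz

lemma F_unit (z : X) : S.F (unitV z) = unitV (S.F z) := by
  sorry

/-- the isometry on the sphere. -/
lemma iso_sphere {a b : X} (ha : ‖a‖ = 1) (hb : ‖b‖ = 1) : ‖S.F a - S.F b‖ = ‖a - b‖ := by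
  sorry

/-- covectors of norm at most one are `1`-Lipschitz along `F` on the sphere. -/
lemma one_lip {γ : StrongDual ℝ Y} (hγ : ‖γ‖ ≤ 1) {a b : X} (ha : ‖a‖ = 1) (hb : ‖b‖ = 1) :
    γ (S.F a - S.F b) ≤ ‖a - b‖ := by
  sorry

lemma symm_F : S.symm.F = S.G := rfl
lemma symm_G : S.symm.G = S.F := rfl
lemma symm_μ : S.symm.μ = S.μ' := rfl
lemma symm_μ' : S.symm.μ' = S.μ := rfl
lemma symm_μd : S.symm.μd = S.μd' := rfl
lemma symm_μd' : S.symm.μd' = S.μd := rfl
lemma symm_ι : S.symm.ι = S.ι.symm := rfl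

lemma symm_aG : S.symm.aG = S.aF := by
  sorry

lemma symm_aF : S.symm.aF = S.aG := rfl

lemma finrank_eq (S : Setup X Y) : finrank ℝ X = finrank ℝ Y := S.ι.toLinearEquiv.finrank_eq

lemma nontrivial_X (S : Setup X Y) : Nontrivial X := by
  sorry

/-- null sets are preserved. -/
theorem ae_comp_F {P : Y → Prop} (h : ∀ᵐ y ∂S.μ', P y) : ∀ᵐ z ∂S.μ, P (S.F z) := by
  sorry

theorem good_smul {t : ℝ} (ht : 0 < t) (z : X) : S.GoodS (t • z) ↔ S.GoodS z := by
  sorry

theorem good_unit {z : X} (hz : z ≠ 0) : S.GoodS (unitV z) ↔ S.GoodS z := by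
  sorry

theorem good_symm {z : X} (h : S.GoodS z) : S.symm.GoodS (S.F z) := by
  sorry

theorem good_symm_iff {y : Y} : S.symm.GoodS y ↔ S.GoodS (S.G y) := by
  sorry

theorem measurableSet_good : MeasurableSet {z : X | S.GoodS z} := by
  sorry

theorem ae_good : ∀ᵐ z ∂S.μ, S.GoodS z := by
  sorry

theorem fderiv_F_smul {t : ℝ} (ht : 0 < t) (z : X) :
    fderiv ℝ S.F (t • z) = fderiv ℝ S.F z := by
  sorry

variable {S} {z : X}

theorem GoodS.hasFD (h : S.GoodS z) : HasFDerivAt S.F (fderiv ℝ S.F z) z :=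
  DifferentiableAt.hasFDerivAt h.2.2.1

theorem GoodS.G_F (h : S.GoodS z) (v : X) :
    fderiv ℝ S.G (S.F z) (fderiv ℝ S.F z v) = v := by
  sorry

theorem GoodS.F_G (h : S.GoodS z) (v : Y) :
    fderiv ℝ S.F z (fderiv ℝ S.G (S.F z) v) = v := by
  sorry

/-- Euler identity. -/
theorem GoodS.euler (h : S.GoodS z) : fderiv ℝ S.F z z = S.F z := by
  sorry

theorem GoodS.grad_comp (h : S.GoodS z) (v : X) :
    gradN (S.F z) (fderiv ℝ S.F z v) = gradN z v := by
  sorry

/-- the derivative of `F` is isometric on the tangent hyperplane. -/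
theorem GoodS.lin_iso (h : S.GoodS z) {v : X} (hv : gradN z v = 0) :
    ‖fderiv ℝ S.F z v‖ = ‖v‖ := by
  sorry

/-- the image of a tangent curve of the sphere. -/
theorem GoodS.curve (h : S.GoodS z) (hz : ‖z‖ = 1) {τ : X} (hτ : gradN z τ = 0) :
    HasDerivAt (fun e : ℝ => S.F (unitV (z + e • τ))) (fderiv ℝ S.F z τ) 0 := by
  sorry

/-- the Jacobian at a good point is positive and multiplicative for the inverse. -/
theorem GoodS.J_pos (h : S.GoodS z) : 0 < S.J z := by
  sorry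

end Setup

end Vale.Agent.Lib.P084V
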