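import Mathlib
import Vale.Agent.Lib.P084V.Basic

/-!
Lipschitz images of null sets, the area formula for `F`.
-/

namespace Vale.Agent.Lib.P084V

open MeasureTheory Metric Set Filter Topology Module
open scoped ENNReal NNReal

section general

variable {E E' : Type*} [NormedAddCommGroup E] [NormedSpace ℝ E] [FiniteDimensional ℝ E]
  [MeasurableSpace E] [BorelSpace E] [NormedAddCommGroup E'] [NormedSpace ℝ E']
  [FiniteDimensional ℝ E'] [MeasurableSpace E'] [BorelSpace E']

/-- Lipschitz images of null sets are null (spaces of the same dimension). -/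
theorem null_image_of_lipschitzOn (hdim : finrank ℝ E = finrank ℝ E') (μ : Measure E) (ν : Measure E')
    [μ.IsAddHaarMeasure] [ν.IsAddHaarMeasure] {f : E → E'} {K : ℝ≥0} {s : Set E}
    (hf : LipschitzOnWith K f s) (hs : μ s = 0) : ν (f '' s) = 0 := by
  sorry

/-- locally Lipschitz images of null sets are null. -/
theorem null_image_of_locally (hdim : finrank ℝ E = finrank ℝ E') (μ : Measure E) (ν : Measure E')
    [μ.IsAddHaarMeasure] [ν.IsAddHaarMeasure] {f : E → E'} {s : Set E}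
    (hf : ∀ z ∈ s, ∃ K : ℝ≥0, ∃ δ > 0, LipschitzOnWith K f (ball z δ ∩ s)) (hs : μ s = 0) :
    ν (f '' s) = 0 := by
  sorry

/-- a locally antilipschitz map has null preimages of null sets. -/
theorem null_preimage_of_antilipschitz (hdim : finrank ℝ E = finrank ℝ E') (μ : Measure E)
    (ν : Measure E') [μ.IsAddHaarMeasure] [ν.IsAddHaarMeasure] {f : E → E'} {U : Set E}
    (hf : ∀ z ∈ U, ∃ K : ℝ, ∃ δ > 0, ∀ a ∈ ball z δ ∩ U, ∀ b ∈ ball z δ ∩ U,
      ‖a - b‖ ≤ K * ‖f a - f b‖) {B : Set E'} (hB : ν B = 0) : μ (U ∩ f ⁻¹' B) = 0 := by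
  sorry

/-- area formula in a full measure form: a map, injective and differentiable with derivative `f'`
on a co-null subset of a measurable set, changes variables. -/
theorem lintegral_image_ae (μ : Measure E) [μ.IsAddHaarMeasure] {f : E → E} {f' : E → E →L[ℝ] E}
    {A B : Set E} (hA : MeasurableSet A) (hinj : InjOn f A) (hAB : f '' A = B)
    (hd : ∀ᵐ z ∂μ, z ∈ A → HasFDerivAt f (f' z) z)
    (hloc : ∀ z ∈ A, ∃ K : ℝ≥0, ∃ δ > 0, LipschitzOnWith K f (ball z δ ∩ A))
    (g : E → ℝ≥0∞) :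
    ∫⁻ y in B, g y ∂μ = ∫⁻ z in A, ENNReal.ofReal |(f' z).det| * g (f z) ∂μ := by
  sorry

end general

namespace Setup

variable {X Y : Type*} [NormedAddCommGroup X] [NormedSpace ℝ X] [FiniteDimensional ℝ X]
  [MeasurableSpace X] [BorelSpace X] [NormedAddCommGroup Y] [NormedSpace ℝ Y]
  [FiniteDimensional ℝ Y] [MeasurableSpace Y] [BorelSpace Y] (S : Setup X Y)

/-- change of variables by `F` on the unit balls. -/
theorem lintegral_ball (g : Y → ℝ≥0∞) :
    ∫⁻ y in closedBall (0 : Y) 1, g y ∂S.μ' =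
      ∫⁻ z in closedBall (0 : X) 1, ENNReal.ofReal (S.J z) * g (S.F z) ∂S.μ := by
  sorry

/-- the linear change of variables on the dual: `L ζ = ζ ∘ DG(Fx)`, with a set `A` of covectors. -/
theorem lintegral_dual {x : X} (h : S.GoodS x) (A : Set (StrongDual ℝ X))
    (g : StrongDual ℝ Y → ℝ≥0∞) :
    ENNReal.ofReal (S.J x) * ∫⁻ ζ' in (fun ζ : StrongDual ℝ X => ζ.comp (fderiv ℝ S.G (S.F x))) '' A,
        g ζ' ∂S.μd' =
      ∫⁻ ζ in A, g (ζ.comp (fderiv ℝ S.G (S.F x))) ∂S.μd := by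
  sorry

end Setup

end Vale.Agent.Lib.P084V
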