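import Mathlib
import Vale.Agent.Lib.P084V.NullMaps

/-!
The cylinder chart: the maps `Ups` and `Gam` (blueprint section 2, P1, P2).
-/

namespace Vale.Agent.Lib.P084V

open MeasureTheory Metric Set Filter Topology Module
open scoped ENNReal NNReal

noncomputable section

variable {V : Type*} [NormedAddCommGroup V] [NormedSpace ℝ V] [FiniteDimensional ℝ V]

/-- the lines in direction `u` that meet the open ball. -/
def Dt (u : V) : Set V := {z | ∃ k : ℝ, ‖z + k • u‖ < 1}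

/-- the cylinder over the shadow of the ball, of height one. -/
def Cyl (ξ : StrongDual ℝ V) (u : V) : Set V := {z | z ∈ Dt u ∧ 0 < ξ z ∧ ξ z < 1}

/-- the open cone over the lower hemisphere, truncated at radius one. -/
def UU (u : V) : Set V := {w | 0 < ‖w‖ ∧ ‖w‖ < 1 ∧ ∃ e : ℝ, 0 < e ∧ ‖unitV w + e • u‖ < 1}

/-- the projection along `u` onto `ker ξ`. -/
def PP (ξ : StrongDual ℝ V) (u z : V) : V := z - ξ z • u

/-- the chart from the cone `UU u` to the cylinder. -/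
def Ups (ξ : StrongDual ℝ V) (u w : V) : V := PP ξ u (unitV w) + (‖w‖ ^ finrank ℝ V) • u

/-- the map from the cylinder to the open ball. -/
def Gam (ξ : StrongDual ℝ V) (u z : V) : V :=
  entryPt u z + (ξ z * (exitT u z - entryT u z)) • u

variable {u : V} {ξ : StrongDual ℝ V}

/-- standing assumption of this file. -/
def PLset (ξ : StrongDual ℝ V) (u : V) : Prop := ‖u‖ = 1 ∧ ‖ξ‖ = 1 ∧ ξ u = 1

theorem exists_PLset (hu : ‖u‖ = 1) : ∃ ξ : StrongDual ℝ V, PLset ξ u := by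
  sorry

theorem isOpen_Dt (hu : ‖u‖ = 1) : IsOpen (Dt u) := by
  sorry

theorem isOpen_Cyl (h : PLset ξ u) : IsOpen (Cyl ξ u) := by
  sorry

theorem isOpen_UU (hu : ‖u‖ = 1) : IsOpen (UU u) := by
  sorry

theorem mem_Dom_of_Dt (hu : ‖u‖ = 1) {z : V} (hz : z ∈ Dt u) : (u, z) ∈ (Dom : Set (V × V)) := by
  sorry

theorem ups_mem (h : PLset ξ u) {w : V} (hw : w ∈ UU u) : Ups ξ u w ∈ Cyl ξ u := by
  sorry

theorem entry_ups (h : PLset ξ u) {w : V} (hw : w ∈ UU u) : entryPt u (Ups ξ u w) = unitV w := by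
  sorry

theorem exit_ups (h : PLset ξ u) {w : V} (hw : w ∈ UU u) :
    exitPt u (Ups ξ u w) = exitPt u (unitV w) := by
  sorry

theorem len_ups (h : PLset ξ u) {w : V} (hw : w ∈ UU u) :
    exitT u (Ups ξ u w) - entryT u (Ups ξ u w) = exitT u (unitV w) := by
  sorry

theorem xi_ups (h : PLset ξ u) {w : V} (hw : w ∈ UU u) : ξ (Ups ξ u w) = ‖w‖ ^ finrank ℝ V := by
  sorry

theorem ups_inj (h : PLset ξ u) : InjOn (Ups ξ u) (UU u) := by
  sorry

theorem ups_image [Nontrivial V] (h : PLset ξ u) : Ups ξ u '' UU u = Cyl ξ u := by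
  sorry

theorem ups_lip (h : PLset ξ u) {w0 : V} (hw : w0 ≠ 0) :
    ∃ K : ℝ≥0, ∃ δ > 0, LipschitzOnWith K (Ups ξ u) (ball w0 δ) := by
  sorry

theorem gam_mem (h : PLset ξ u) {z : V} (hz : z ∈ Cyl ξ u) : ‖Gam ξ u z‖ < 1 := by
  sorry

theorem entry_gam (h : PLset ξ u) {z : V} (hz : z ∈ Cyl ξ u) :
    entryPt u (Gam ξ u z) = entryPt u z := by
  sorry

theorem exit_gam (h : PLset ξ u) {z : V} (hz : z ∈ Cyl ξ u) :
    exitPt u (Gam ξ u z) = exitPt u z := by
  sorry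

theorem theta_gam (h : PLset ξ u) {z : V} (hz : z ∈ Cyl ξ u) : thetaOf u (Gam ξ u z) = ξ z := by
  sorry

theorem gam_inj (h : PLset ξ u) : InjOn (Gam ξ u) (Cyl ξ u) := by
  sorry

theorem gam_image (h : PLset ξ u) : Gam ξ u '' Cyl ξ u = ball (0 : V) 1 := by
  sorry

theorem gam_lip (h : PLset ξ u) {z0 : V} (hz : z0 ∈ Cyl ξ u) :
    ∃ K : ℝ≥0, ∃ δ > 0, LipschitzOnWith K (Gam ξ u) (ball z0 δ ∩ Cyl ξ u) := by
  sorry

end

end Vale.Agent.Lib.P084V
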