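import Mathlib
import Vale.Agent.Lib.P084V.CylBij

/-!
Jacobians of the chart maps (blueprint section 2, P3).
-/

namespace Vale.Agent.Lib.P084V

open MeasureTheory Metric Set Filter Topology Module

variable {V : Type*} [NormedAddCommGroup V] [NormedSpace ℝ V] [FiniteDimensional ℝ V]

/-- determinant of a rank one perturbation of the identity. -/
theorem det_id_add_rank_one (a : V) (α : StrongDual ℝ V) :
    (ContinuousLinearMap.id ℝ V + α.smulRight a).det = 1 + α a := by
  sorry

/-- determinant of a rank two perturbation of the identity. -/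
theorem det_id_add_rank_two (a b : V) (α β : StrongDual ℝ V) :
    (ContinuousLinearMap.id ℝ V + α.smulRight a + β.smulRight b).det =
      (1 + α a) * (1 + β b) - α b * β a := by
  sorry

variable {u : V} {ξ : StrongDual ℝ V}

/-- derivative of `Ups`. -/
theorem ups_hasFDeriv (h : PLset ξ u) {w : V} (hw : w ∈ UU u) (hd : DiffN (unitV w)) :
    ∃ L : V →L[ℝ] V, HasFDerivAt (Ups ξ u) L w ∧
      |L.det| = finrank ℝ V * (- gradN (unitV w) u) := by
  sorry

/-- derivative of `Gam`. -/
theorem gam_hasFDeriv (h : PLset ξ u) {z : V} (hz : z ∈ Cyl ξ u) (hd1 : DiffN (entryPt u z))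
    (hd2 : DiffN (exitPt u z)) :
    ∃ L : V →L[ℝ] V, HasFDerivAt (Gam ξ u) L z ∧ |L.det| = exitT u z - entryT u z := by
  sorry

end Vale.Agent.Lib.P084V
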