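import Mathlib
import Vale.Agent.Lib.P084V.Basic

/-!
First variation and the chord correspondence (blueprint section 5).
-/

namespace Vale.Agent.Lib.P084V

open MeasureTheory Metric Set Filter Topology Module

namespace Setup

variable {X Y : Type*} [NormedAddCommGroup X] [NormedSpace ℝ X] [FiniteDimensional ℝ X]
  [MeasurableSpace X] [BorelSpace X] [NormedAddCommGroup Y] [NormedSpace ℝ Y]
  [FiniteDimensional ℝ Y] [MeasurableSpace Y] [BorelSpace Y] (S : Setup X Y)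

/-- Lemma 5.1. -/
theorem lift_le {x y : X} (hx : ‖x‖ = 1) (hy : ‖y‖ = 1) (hne : y ≠ x) (hg : S.GoodS x)
    (hφ : gradN x (dirXY x y) ≠ 0) {γ : StrongDual ℝ Y} (hγ : ‖γ‖ ≤ 1)
    (hγ1 : γ (S.F y - S.F x) = ‖y - x‖) :
    liftCov (gradN x) (γ.comp (fderiv ℝ S.F x)) (dirXY x y) (dirXY x y) = 1 ∧
      ‖liftCov (gradN x) (γ.comp (fderiv ℝ S.F x)) (dirXY x y)‖ ≤ 1 := by
  sorry

/-- Lemma 5.2. -/
theorem transversal {x y : X} (hx : ‖x‖ = 1) (hy : ‖y‖ = 1) (hne : y ≠ x) (hg : S.GoodS x)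
    {ξ : StrongDual ℝ X} (hξ : ‖ξ‖ ≤ 1) (hξ1 : ξ (y - x) = ‖y - x‖) {c : ℝ} (hc : c < 1)
    (hres : ∀ v, gradN x v = 0 → ξ v ≤ c * ‖v‖) :
    gradN (S.F x) (dirXY (S.F x) (S.F y)) < 0 := by
  sorry

theorem mem_Dd_comp {x : X} (hx : ‖x‖ = 1) (hg : S.GoodS x) {ζ : StrongDual ℝ X} :
    ζ.comp (fderiv ℝ S.G (S.F x)) ∈ Dd (S.F x) ↔ ζ ∈ Dd x := by
  sorry

theorem comp_apply_F {x : X} (hg : S.GoodS x) (ζ : StrongDual ℝ X) :
    ζ.comp (fderiv ℝ S.G (S.F x)) (S.F x) = ζ x := by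
  sorry

theorem mem_CylD_comp {x : X} (hx : ‖x‖ = 1) (hg : S.GoodS x) {ζ : StrongDual ℝ X} :
    ζ.comp (fderiv ℝ S.G (S.F x)) ∈ CylD (S.F x) ↔ ζ ∈ CylD x := by
  sorry

theorem image_CylD_comp {x : X} (hx : ‖x‖ = 1) (hg : S.GoodS x) :
    (fun ζ : StrongDual ℝ X => ζ.comp (fderiv ℝ S.G (S.F x))) '' CylD x = CylD (S.F x) := by
  sorry

/-- Theorem 5.3. -/
theorem cc {x : X} (hx : ‖x‖ = 1) (hg : S.GoodS x) {ζ : StrongDual ℝ X} (hζ : ζ ∈ Dd x) {u : X}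
    (hu : ‖u‖ = 1) (h1 : low x ζ u = 1) :
    ‖S.F (exitPt u x) - S.F x‖ = ‖exitPt u x - x‖ ∧ S.F (exitPt u x) ≠ S.F x ∧
      gradN (S.F x) (dirXY (S.F x) (S.F (exitPt u x))) < 0 ∧
      S.lowY x ζ (dirXY (S.F x) (S.F (exitPt u x))) = 1 ∧
      S.lowY x ζ = liftCov (gradN (S.F x)) ((low x ζ).comp (fderiv ℝ S.G (S.F x)))
        (dirXY (S.F x) (S.F (exitPt u x))) ∧
      low x ζ = liftCov (gradN x) ((S.lowY x ζ).comp (fderiv ℝ S.F x)) u := by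
  sorry

/-- Theorem 5.3, the chord in the target when the dual norm is differentiable there. -/
theorem cc_dirOf {x : X} (hx : ‖x‖ = 1) (hg : S.GoodS x) {ζ : StrongDual ℝ X} (hζ : ζ ∈ Dd x) {u : X}
    (hu : ‖u‖ = 1) (h1 : low x ζ u = 1) (hd' : DiffN (S.lowY x ζ)) :
    dirOf (S.lowY x ζ) = dirXY (S.F x) (S.F (exitPt u x)) ∧
      exitPt (dirOf (S.lowY x ζ)) (S.F x) = S.F (exitPt u x) ∧
      exitT (dirOf (S.lowY x ζ)) (S.F x) = exitT u x := by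
  sorry

/-- the correspondence of the generic chords of the two cotangent models. -/
theorem yOf_corr {x : X} (hx : ‖x‖ = 1) (hg : S.GoodS x) {ζ : StrongDual ℝ X} (hζ : ζ ∈ Dd x)
    (hd : DiffN (low x ζ)) (hd' : DiffN (S.lowY x ζ)) :
    yOf (S.F x) (ζ.comp (fderiv ℝ S.G (S.F x))) = S.F (yOf x ζ) ∧
      rhoOf (S.F x) (ζ.comp (fderiv ℝ S.G (S.F x))) = rhoOf x ζ := by
  sorry

end Setup

end Vale.Agent.Lib.P084V
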