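import Mathlib
import Vale.Agent.Lib.P084V.ChordCorr

/-!
Non crossing of the images of parallel chords (blueprint 6.1, 6.2).
-/

namespace Vale.Agent.Lib.P084V

open MeasureTheory Metric Set Filter Topology Module

namespace Setup

variable {X Y : Type*} [NormedAddCommGroup X] [NormedSpace ℝ X] [FiniteDimensional ℝ X]
  [MeasurableSpace X] [BorelSpace X] [NormedAddCommGroup Y] [NormedSpace ℝ Y]
  [FiniteDimensional ℝ Y] [MeasurableSpace Y] [BorelSpace Y] (S : Setup X Y)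

/-- Lemma 6.1. -/
theorem cov_eq {η' : StrongDual ℝ Y} (hη : ‖η'‖ ≤ 1) {x1 y2 q u1 u2 : X} {a b : ℝ}
    (hx1 : ‖x1‖ = 1) (hy2 : ‖y2‖ = 1) (gx : S.GoodS x1) (gy : S.GoodS y2) (ha : 0 < a) (hb : 0 < b)
    (hu1 : ‖u1‖ = 1) (hu2 : ‖u2‖ = 1) (h1 : q = x1 + a • u1) (h2 : q = y2 - b • u2)
    (hφ1 : gradN x1 u1 ≠ 0) (hφ2 : gradN y2 u2 ≠ 0) (hη2 : η' (S.F y2 - S.F x1) = a + b) :
    liftCov (gradN x1) (η'.comp (fderiv ℝ S.F x1)) u1 =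
      liftCov (gradN y2) (η'.comp (fderiv ℝ S.F y2)) u2 := by
  sorry

/-- Transversality of the image chord in a leaf. -/
theorem leaf_transversal {η' : StrongDual ℝ Y} (hη : ‖η'‖ = 1) (hd : DiffN η') {x' y' : Y}
    (hx' : ‖x'‖ = 1) (hy' : ‖y'‖ = 1) (g1 : S.symm.GoodS x') (g2 : S.symm.GoodS y') {ρ : ℝ}
    (hρ : 0 < ρ) (hy : y' = x' + ρ • dirOf η') :
    gradN (S.G x') (dirXY (S.G x') (S.G y')) < 0 ∧ 0 < gradN (S.G y') (dirXY (S.G x') (S.G y')) := by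
  sorry

/-- Theorem 6.2. -/
theorem noncross {η' : StrongDual ℝ Y} (hη : ‖η'‖ = 1) (hd : DiffN η')
    {x1' y1' x2' y2' : Y} {ρ1 ρ2 θ1 θ2 : ℝ}
    (hx1 : ‖x1'‖ = 1) (hy1 : ‖y1'‖ = 1) (hx2 : ‖x2'‖ = 1) (hy2 : ‖y2'‖ = 1)
    (gx1 : S.symm.GoodS x1') (gy1 : S.symm.GoodS y1') (gx2 : S.symm.GoodS x2')
    (gy2 : S.symm.GoodS y2') (hρ1 : 0 < ρ1) (hρ2 : 0 < ρ2)
    (hy1' : y1' = x1' + ρ1 • dirOf η') (hy2' : y2' = x2' + ρ2 • dirOf η')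
    (hθ1 : θ1 ∈ Ioo (0 : ℝ) 1) (hθ2 : θ2 ∈ Ioo (0 : ℝ) 1)
    (hq : (1 - θ1) • S.G x1' + θ1 • S.G y1' = (1 - θ2) • S.G x2' + θ2 • S.G y2')
    (hgen : DiffN (liftCov (gradN (S.G x1')) (η'.comp (fderiv ℝ S.F (S.G x1')))
      (dirXY (S.G x1') (S.G y1')))) :
    x1' = x2' ∧ y1' = y2' ∧ θ1 = θ2 := by
  sorry

end Setup

end Vale.Agent.Lib.P084V
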