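import Mathlib
import Vale.Agent.Lib.P084V.ChordCorr
import Vale.Agent.Lib.P084V.NonCross
import Vale.Agent.Lib.P084V.Alexandrov

/-!
The facts on a generic chord (blueprint 8.2, end).
-/

namespace Vale.Agent.Lib.P084V

open MeasureTheory Metric Set Filter Topology Module

namespace Setup

variable {X Y : Type*} [NormedAddCommGroup X] [NormedSpace ℝ X] [FiniteDimensional ℝ X]
  [MeasurableSpace X] [BorelSpace X] [NormedAddCommGroup Y] [NormedSpace ℝ Y]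
  [FiniteDimensional ℝ Y] [MeasurableSpace Y] [BorelSpace Y] (S : Setup X Y)

/-- the facts on a generic chord. -/
structure ChordFacts (x : X) (ζ : StrongDual ℝ X) : Prop where
  norm_y : ‖yOf x ζ‖ = 1
  ne : yOf x ζ ≠ x
  rho_eq : rhoOf x ζ = ‖yOf x ζ - x‖
  rho_pos : 0 < ‖yOf x ζ - x‖
  norm_low : ‖low x ζ‖ = 1
  norm_lowY : ‖S.lowY x ζ‖ = 1
  dir_eq : dirXY x (yOf x ζ) = dirOf (low x ζ)
  dir_eq' : dirXY (S.F x) (S.F (yOf x ζ)) = dirOf (S.lowY x ζ)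
  norm_u : ‖dirOf (low x ζ)‖ = 1
  norm_u' : ‖dirOf (S.lowY x ζ)‖ = 1
  low_u : low x ζ (dirOf (low x ζ)) = 1
  lowY_u' : S.lowY x ζ (dirOf (S.lowY x ζ)) = 1
  grad_x : gradN x (dirOf (low x ζ)) < 0
  grad_y : 0 < gradN (yOf x ζ) (dirOf (low x ζ))
  grad_x' : gradN (S.F x) (dirOf (S.lowY x ζ)) < 0
  grad_y' : 0 < gradN (S.F (yOf x ζ)) (dirOf (S.lowY x ζ))
  norm_eq : ‖S.F (yOf x ζ) - S.F x‖ = ‖yOf x ζ - x‖
  y_eq : yOf x ζ = x + rhoOf x ζ • dirOf (low x ζ)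
  y_eq' : S.F (yOf x ζ) = S.F x + rhoOf x ζ • dirOf (S.lowY x ζ)
  lift : low x ζ = liftCov (gradN x) ((S.lowY x ζ).comp (fderiv ℝ S.F x)) (dirOf (low x ζ))
  lift' : S.lowY x ζ = liftCov (gradN (S.F x)) ((low x ζ).comp (fderiv ℝ S.G (S.F x)))
    (dirOf (S.lowY x ζ))

variable {S} {x : X} {ζ : StrongDual ℝ X}

theorem GenPt.chord (h : S.GenPt x ζ) : S.ChordFacts x ζ := by
  sorry

end Setup

end Vale.Agent.Lib.P084V
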