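import Mathlib
import Vale.Agent.Lib.P084V.CylJac
import Vale.Agent.Lib.P084V.GenChord

/-!
The Jacobian at the start of a chord (blueprint section 7, DET0).
-/

namespace Vale.Agent.Lib.P084V

open MeasureTheory Metric Set Filter Topology Module

namespace Setup

variable {X Y : Type*} [NormedAddCommGroup X] [NormedSpace ℝ X] [FiniteDimensional ℝ X]
  [MeasurableSpace X] [BorelSpace X] [NormedAddCommGroup Y] [NormedSpace ℝ Y]
  [FiniteDimensional ℝ Y] [MeasurableSpace Y] [BorelSpace Y] (S : Setup X Y)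

/-- DET0: `aG` at the start of the chord is `t / (t' J)`. -/
theorem aG_zero {x y : X} (hx : ‖x‖ = 1) (hy : ‖y‖ = 1) (hne : y ≠ x) (hg : S.GoodS x)
    (hφ : gradN x (dirXY x y) ≠ 0) (hφ' : gradN (S.F x) (dirXY (S.F x) (S.F y)) ≠ 0) :
    S.aG (S.F x) (S.F y) 0 * (|gradN (S.F x) (dirXY (S.F x) (S.F y))| * S.J x) =
      |gradN x (dirXY x y)| := by
  sorry

end Setup

end Vale.Agent.Lib.P084V
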