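import Mathlib
import Vale.Agent.Lib.P084V.CylJac

/-!
The projection lemmas (blueprint section 2, P4, PL1, PL2, PL3).
-/

namespace Vale.Agent.Lib.P084V

open MeasureTheory Metric Set Filter Topology Module
open scoped ENNReal

variable {V : Type*} [NormedAddCommGroup V] [NormedSpace ℝ V] [FiniteDimensional ℝ V]
  [MeasurableSpace V] [BorelSpace V] [Nontrivial V] (μ : Measure V) [μ.IsAddHaarMeasure]
  {u : V} {ξ : StrongDual ℝ V}

/-- P4: a property of a.e. radial projection holds at the entry point of a.e. point of the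
cylinder. -/
theorem pl4_cyl (h : PLset ξ u) {P : V → Prop} (hP : ∀ᵐ w ∂μ, P (unitV w)) :
    ∀ᵐ z ∂μ, z ∈ Cyl ξ u → P (entryPt u z) := by
  sorry

/-- P4: the same at the entry point of the chord through a.e. point of the ball. -/
theorem pl4_entry (hu : ‖u‖ = 1) {P : V → Prop} (hP : ∀ᵐ w ∂μ, P (unitV w)) :
    ∀ᵐ w ∂μ, ‖w‖ < 1 → P (entryPt u w) := by
  sorry

/-- P4: the same at the exit point of the chord through a.e. point of the ball. -/
theorem pl4_exit (hu : ‖u‖ = 1) {P : V → Prop} (hP : ∀ᵐ w ∂μ, P (unitV w)) :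
    ∀ᵐ w ∂μ, ‖w‖ < 1 → P (exitPt u w) := by
  sorry

/-- PL1. -/
theorem pl1 (h : PLset ξ u) (Q : V → ℝ≥0∞) :
    ∫⁻ z in Cyl ξ u, Q (entryPt u z) ∂μ =
      ∫⁻ w in closedBall (0 : V) 1, Q (unitV w) *
        ENNReal.ofReal (finrank ℝ V * (- gradN (unitV w) u)) ∂μ := by
  sorry

/-- PL2. -/
theorem pl2 (h : PLset ξ u) (g : V → ℝ≥0∞) :
    ∫⁻ w in ball (0 : V) 1, g w ∂μ =
      ∫⁻ z in Cyl ξ u, g (Gam ξ u z) * ENNReal.ofReal (exitT u z - entryT u z) ∂μ := by
  sorry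

/-- PL3: integration over the ball along chords in direction `u`. -/
theorem pl3 (hu : ‖u‖ = 1) (Q : V × V × ℝ → ℝ≥0∞) :
    ∫⁻ w in closedBall (0 : V) 1, Q (entryPt u w, exitPt u w, thetaOf u w) ∂μ =
      ∫⁻ w in closedBall (0 : V) 1,
        Q (unitV w, exitPt u (unitV w), ‖w‖ ^ finrank ℝ V) *
          ENNReal.ofReal (exitT u (unitV w)) *
            ENNReal.ofReal (finrank ℝ V * (- gradN (unitV w) u)) ∂μ := by
  sorry

end Vale.Agent.Lib.P084V
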