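import Mathlib
import Vale.Agent.Lib.P084V.Basic

/-!
Polar identity (blueprint section 2, POL).
-/

namespace Vale.Agent.Lib.P084V

open MeasureTheory Metric Set Filter Topology Module
open scoped ENNReal

variable {V : Type*} [NormedAddCommGroup V] [NormedSpace ℝ V] [FiniteDimensional ℝ V]
  [MeasurableSpace V] [BorelSpace V] [Nontrivial V] (μ : Measure V) [μ.IsAddHaarMeasure]

/-- the radial variable, raised to the dimension, is uniform and independent of the direction. -/
theorem polar {h : V × ℝ → ℝ≥0∞} (hh : Measurable h) :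
    ∫⁻ w in closedBall (0 : V) 1, h (unitV w, ‖w‖ ^ finrank ℝ V) ∂μ =
      ∫⁻ w in closedBall (0 : V) 1, ∫⁻ θ in Ioo (0 : ℝ) 1, h (unitV w, θ) ∂volume ∂μ := by
  sorry

end Vale.Agent.Lib.P084V
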