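import Mathlib
import Vale.Agent.Lib.P084V.CylMain
import Vale.Agent.Lib.P084V.Polar

/-!
Santalo formula: `leftInt = masterInt` (blueprint section 4).
-/

namespace Vale.Agent.Lib.P084V

open MeasureTheory Metric Set Filter Topology Module
open scoped ENNReal

variable {X : Type*} [NormedAddCommGroup X] [NormedSpace ℝ X] [FiniteDimensional ℝ X]
  [MeasurableSpace X] [BorelSpace X] [Nontrivial X]
  (μ : Measure X) (μd : Measure (StrongDual ℝ X)) [μ.IsAddHaarMeasure] [μd.IsAddHaarMeasure]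

/-- PL1 in the dual, at a point `x` of differentiability. -/
theorem pl1_dual {x : X} (hx : ‖x‖ = 1) (hd : DiffN x) (Q : StrongDual ℝ X → ℝ≥0∞) :
    ∫⁻ ζ in CylD x, Q (low x ζ) ∂μd =
      ∫⁻ η in closedBall (0 : StrongDual ℝ X) 1, Q (unitV η) *
        ENNReal.ofReal (finrank ℝ X * (- gradN x (dirOf η))) ∂μd := by
  sorry

/-- P4 in the dual. -/
theorem ae_low {x : X} (hx : ‖x‖ = 1) (hd : DiffN x) {P : StrongDual ℝ X → Prop}
    (hP : ∀ᵐ η ∂μd, P (unitV η)) : ∀ᵐ ζ ∂μd, ζ ∈ CylD x → P (low x ζ) := by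
  sorry

/-- the domain of the cotangent model. -/
def Mset (X : Type*) [NormedAddCommGroup X] [NormedSpace ℝ X] [FiniteDimensional ℝ X] :
    Set (X × StrongDual ℝ X) := {p | ‖p.1‖ ≤ 1 ∧ p.2 ∈ CylD (unitV p.1)}

theorem measurableSet_Mset : MeasurableSet (Mset X) := by
  sorry

/-- measurability of the integrand of the left integral. -/
theorem aemeasurable_left {Ξ : Dat X → ℝ≥0∞} (hΞ : Measurable Ξ) :
    AEMeasurable (fun p : StrongDual ℝ X × X =>
      Ξ (entryPt (dirOf p.1) p.2, exitPt (dirOf p.1) p.2, thetaOf (dirOf p.1) p.2, unitV p.1))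
      ((μd.restrict (closedBall 0 1)).prod (μ.restrict (closedBall 0 1))) := by
  sorry

/-- measurability of the chord data on the cotangent model. -/
theorem aemeasurable_master {Ξ : Dat X → ℝ≥0∞} (hΞ : Measurable Ξ) :
    AEMeasurable (fun p : X × StrongDual ℝ X =>
      Ξ (unitV p.1, yOf (unitV p.1) p.2, ‖p.1‖ ^ finrank ℝ X, low (unitV p.1) p.2) *
        ENNReal.ofReal (rhoOf (unitV p.1) p.2))
      ((μ.prod μd).restrict (Mset X)) := by
  sorry

/-- **Santalo formula**. -/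
theorem santalo {Ξ : Dat X → ℝ≥0∞} (hΞ : Measurable Ξ) : leftInt μ μd Ξ = masterInt μ μd Ξ := by
  sorry

end Vale.Agent.Lib.P084V
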