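import Mathlib
import Vale.Agent.Lib.P084V.Santalo

/-!
Calculus of the master integral.
-/

namespace Vale.Agent.Lib.P084V

open MeasureTheory Metric Set Filter Topology Module
open scoped ENNReal

variable {X : Type*} [NormedAddCommGroup X] [NormedSpace ℝ X] [FiniteDimensional ℝ X]
  [MeasurableSpace X] [BorelSpace X] [Nontrivial X]
  (μ : Measure X) (μd : Measure (StrongDual ℝ X)) [μ.IsAddHaarMeasure] [μd.IsAddHaarMeasure]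

/-- the chord data of a point of the cotangent model. -/
noncomputable def datOf (w : X) (ζ : StrongDual ℝ X) : Dat X :=
  (unitV w, yOf (unitV w) ζ, ‖w‖ ^ finrank ℝ X, low (unitV w) ζ)

/-- for a.e. point of the cotangent model the chord is a genuine chord. -/
theorem ae_chord_master : ∀ᵐ w ∂μ, ‖w‖ ≤ 1 → ∀ᵐ ζ ∂μd, ζ ∈ CylD (unitV w) →
    w ≠ 0 ∧ DiffN (unitV w) ∧ DiffN (low (unitV w) ζ) ∧ 0 < rhoOf (unitV w) ζ := by
  sorry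

theorem masterInt_mono_ae {Ξ1 Ξ2 : Dat X → ℝ≥0∞}
    (h : ∀ᵐ w ∂μ, ‖w‖ ≤ 1 → ∀ᵐ ζ ∂μd, ζ ∈ CylD (unitV w) → Ξ1 (datOf w ζ) ≤ Ξ2 (datOf w ζ)) :
    masterInt μ μd Ξ1 ≤ masterInt μ μd Ξ2 := by
  sorry

theorem masterInt_add {Ξ1 Ξ2 : Dat X → ℝ≥0∞} (h1 : Measurable Ξ1) (h2 : Measurable Ξ2) :
    masterInt μ μd (fun p => Ξ1 p + Ξ2 p) = masterInt μ μd Ξ1 + masterInt μ μd Ξ2 := by
  sorry

theorem masterInt_const_mul (c : ℝ≥0∞) (hc : c ≠ ⊤) {Ξ : Dat X → ℝ≥0∞} (h : Measurable Ξ) :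
    masterInt μ μd (fun p => c * Ξ p) = c * masterInt μ μd Ξ := by
  sorry

/-- total mass of the master measure. -/
theorem masterInt_one :
    masterInt μ μd (fun _ => 1) = μ (closedBall 0 1) * μd (closedBall 0 1) := by
  sorry

/-- a measurable set null for the master integral is a.e. avoided. -/
theorem master_ae_of_zero {B : Set (Dat X)} (hB : MeasurableSet B)
    (h : masterInt μ μd (B.indicator fun _ => 1) = 0) :
    ∀ᵐ w ∂μ, ‖w‖ ≤ 1 → ∀ᵐ ζ ∂μd, ζ ∈ CylD (unitV w) → datOf w ζ ∉ B := by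
  sorry

/-- a Borel set that is null for the left integral is null for the master integral. -/
theorem master_ae_of_left {B : Set (Dat X)} (hB : MeasurableSet B)
    (h : ∀ᵐ η ∂μd, ‖η‖ ≤ 1 → ∀ᵐ w ∂μ, ‖w‖ ≤ 1 →
      (entryPt (dirOf η) w, exitPt (dirOf η) w, thetaOf (dirOf η) w, unitV η) ∉ B) :
    ∀ᵐ w ∂μ, ‖w‖ ≤ 1 → ∀ᵐ ζ ∂μd, ζ ∈ CylD (unitV w) → datOf w ζ ∉ B := by
  sorry

/-- a Borel set a.e. avoided in the cotangent model is a.e. avoided for all positions on the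
chord. -/
theorem master_theta_ae {B : Set (Dat X)} (hB : MeasurableSet B)
    (h : ∀ᵐ w ∂μ, ‖w‖ ≤ 1 → ∀ᵐ ζ ∂μd, ζ ∈ CylD (unitV w) → datOf w ζ ∉ B) :
    ∀ᵐ w ∂μ, ‖w‖ ≤ 1 → ∀ᵐ ζ ∂μd, ζ ∈ CylD (unitV w) → ∀ᵐ θ ∂(volume : Measure ℝ), θ ∈ Ioo (0 : ℝ) 1 →
      (unitV w, yOf (unitV w) ζ, θ, low (unitV w) ζ) ∉ B := by
  sorry

/-- if a measurable function is at least `c` a.e. on the master model and its master integral is at
most `c` times the total mass, it equals `c` a.e. -/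
theorem master_eq_of_le {Ξ : Dat X → ℝ≥0∞} (hΞ : Measurable Ξ) {c : ℝ≥0∞} (hc : c ≠ ⊤)
    (h : ∀ᵐ w ∂μ, ‖w‖ ≤ 1 → ∀ᵐ ζ ∂μd, ζ ∈ CylD (unitV w) → c ≤ Ξ (datOf w ζ))
    (hle : masterInt μ μd Ξ ≤ c * masterInt μ μd (fun _ => 1)) :
    ∀ᵐ w ∂μ, ‖w‖ ≤ 1 → ∀ᵐ ζ ∂μd, ζ ∈ CylD (unitV w) → Ξ (datOf w ζ) = c := by
  sorry

end Vale.Agent.Lib.P084V
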