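import Mathlib
import Vale.Agent.Lib.P084V.Alexandrov
import Vale.Agent.Lib.P084V.NullMaps

/-!
The maps `z ↦ z - ‖z‖ a` (blueprint 8.2, first part) and the spanning lemma.
-/

namespace Vale.Agent.Lib.P084V

open MeasureTheory Metric Set Filter Topology Module

variable {V : Type*} [NormedAddCommGroup V] [NormedSpace ℝ V] [FiniteDimensional ℝ V]

/-- the open cone of the points whose radial projection is not in a common face with `a`. -/
def Uaa (a : V) : Set V := {z | z ≠ 0 ∧ ‖unitV z + a‖ < 2}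

theorem isOpen_Uaa (a : V) : IsOpen (Uaa a) := by
  sorry

/-- the local antilipschitz estimate. -/
theorem omega_antilip {a z0 : V} (ha : ‖a‖ = 1) (hz : z0 ∈ Uaa a) :
    ∃ K : ℝ, ∃ δ > 0, ball z0 δ ⊆ Uaa a ∧ ∀ z1 ∈ ball z0 δ, ∀ z2 ∈ ball z0 δ,
      ‖z1 - z2‖ ≤ K * ‖(z1 - ‖z1‖ • a) - (z2 - ‖z2‖ • a)‖ := by
  sorry

/-- a.e. point of `Uaa a` has its image under the map in a given co-null set. -/
theorem ae_of_omega [MeasurableSpace V] [BorelSpace V] (μ : Measure V) [μ.IsAddHaarMeasure] {a : V}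
    (ha : ‖a‖ = 1) {P : V → Prop} (hP : ∀ᵐ v ∂μ, P v) : ∀ᵐ z ∂μ, z ∈ Uaa a → P (z - ‖z‖ • a) := by
  sorry

/-- the spanning lemma. -/
theorem span_grad {x : V} (hx : ‖x‖ = 1) (hd : DiffN x) {A0 : Set V}
    (hA0 : ∀ a : V, ‖a‖ = 1 → ∀ ε > 0, ∃ b ∈ A0, ‖b‖ = 1 ∧ ‖b - a‖ < ε)
    (hdiff : ∀ a ∈ A0, gradN x a < 1 → DiffN (x - a)) {v : V} (hv : gradN x v = 0)
    (h0 : ∀ a ∈ A0, ‖a‖ = 1 → gradN x a < 1 → gradN (x - a) v = 0) : v = 0 := by
  sorry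

end Vale.Agent.Lib.P084V
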