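import Mathlib
import Vale.Agent.Lib.P084V.GenChord
import Vale.Agent.Lib.P084V.MasterAPI
import Vale.Agent.Lib.P084V.PLipC

/-!
Almost every point of the cotangent model is generic (blueprint 8.2, end).
-/

namespace Vale.Agent.Lib.P084V

open MeasureTheory Metric Set Filter Topology Module

namespace Setup

variable {X Y : Type*} [NormedAddCommGroup X] [NormedSpace ℝ X] [FiniteDimensional ℝ X]
  [MeasurableSpace X] [BorelSpace X] [NormedAddCommGroup Y] [NormedSpace ℝ Y]
  [FiniteDimensional ℝ Y] [MeasurableSpace Y] [BorelSpace Y] (S : Setup X Y)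

theorem ae_genPt : ∀ᵐ w ∂S.μ, ‖w‖ ≤ 1 → ∀ᵐ ζ ∂S.μd, ζ ∈ CylD (unitV w) →
    S.GenPt (unitV w) ζ := by
  sorry

end Setup

end Vale.Agent.Lib.P084V
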