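import Mathlib
import Vale.Agent.Lib.P084V.GenChord

/-!
Variation of the chord at a fixed start point (blueprint 8.3).
-/

namespace Vale.Agent.Lib.P084V

open MeasureTheory Metric Set Filter Topology Module

namespace Setup

variable {X Y : Type*} [NormedAddCommGroup X] [NormedSpace ℝ X] [FiniteDimensional ℝ X]
  [MeasurableSpace X] [BorelSpace X] [NormedAddCommGroup Y] [NormedSpace ℝ Y]
  [FiniteDimensional ℝ Y] [MeasurableSpace Y] [BorelSpace Y] {S : Setup X Y}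

/-- Section 8.3 of the blueprint. -/
theorem GenPt.fiber {x : X} {ζ : StrongDual ℝ X} (h : S.GenPt x ζ)
    {W : StrongDual ℝ X →L[ℝ] StrongDual ℝ (StrongDual ℝ X)}
    {W' : StrongDual ℝ Y →L[ℝ] StrongDual ℝ (StrongDual ℝ Y)}
    (hW : IsAlexForm (low x ζ) W) (hW' : IsAlexForm (S.lowY x ζ) W')
    {β : StrongDual ℝ X} {β' : StrongDual ℝ Y} (hβ : β (dirOf (low x ζ)) = 0)
    (hβ' : β' (dirOf (S.lowY x ζ)) = 0)
    (hrel : ∀ v, gradN x v = 0 → β' (fderiv ℝ S.F x v) = β v)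
    {γ' : StrongDual ℝ Y} (hγ' : γ' (dirOf (S.lowY x ζ)) = 0) :
    W' β' γ' = γ' (fderiv ℝ S.F (yOf x ζ)
      (projT (gradN (yOf x ζ)) (dirOf (low x ζ)) ((bidual X).symm (W β)))) := by
  sorry

end Setup

end Vale.Agent.Lib.P084V
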