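import Mathlib

/-!
Determinant computations in adapted frames (blueprint section 7).
-/

namespace Vale.Agent.Lib.P084V

open Module

variable {X Y : Type*} [NormedAddCommGroup X] [NormedSpace ℝ X] [FiniteDimensional ℝ X]
  [NormedAddCommGroup Y] [NormedSpace ℝ Y] [FiniteDimensional ℝ Y]

/-- the product of the two Jacobians is a single determinant. -/
theorem jac_product (ι : X ≃L[ℝ] Y) (A : X →L[ℝ] Y) (B : Y →L[ℝ] X) :
    |((ι.symm : Y →L[ℝ] X).comp A).det| * |((ι : X →L[ℝ] Y).comp B).det| = |(B.comp A).det| := by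
  sorry

/-- an endomorphism fixing the first basis vector: the determinant is that of the block. -/
theorem det_fix_first {m : ℕ} (b : Basis (Fin (m + 1)) ℝ X) (E : X →L[ℝ] X) (h0 : E (b 0) = b 0)
    (M : Matrix (Fin m) (Fin m) ℝ) (hM : ∀ j k, b.coord j.succ (E (b k.succ)) = M j k) :
    E.det = M.det := by
  sorry

/-- a hyperplane and a transversal vector give an adapted basis. -/
theorem exists_adapted_basis {m : ℕ} (hm : finrank ℝ X = m + 1) {φ : StrongDual ℝ X} {u : X}
    (hu : φ u ≠ 0) : ∃ b : Basis (Fin (m + 1)) ℝ X, b 0 = u ∧ ∀ k : Fin m, φ (b k.succ) = 0 := by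
  sorry

end Vale.Agent.Lib.P084V
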