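import Mathlib
import Vale.Agent.Lib.P084V.GenChord
import Vale.Agent.Lib.P084V.CylMain

/-!
Variation along parallel chords (blueprint 8.4).
-/

namespace Vale.Agent.Lib.P084V

open MeasureTheory Metric Set Filter Topology Module

namespace Setup

variable {X Y : Type*} [NormedAddCommGroup X] [NormedSpace ℝ X] [FiniteDimensional ℝ X]
  [MeasurableSpace X] [BorelSpace X] [NormedAddCommGroup Y] [NormedSpace ℝ Y]
  [FiniteDimensional ℝ Y] [MeasurableSpace Y] [BorelSpace Y] {S : Setup X Y}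

/-- Section 8.4 of the blueprint. -/
theorem GenPt.leafDiff {x : X} {ζ : StrongDual ℝ X} (h : S.GenPt x ζ)
    {W : StrongDual ℝ X →L[ℝ] StrongDual ℝ (StrongDual ℝ X)}
    (hW : IsAlexForm (low x ζ) W) {v' : Y} (hv' : gradN (S.F x) v' = 0) :
    ∃ β : StrongDual ℝ X, β (dirOf (low x ζ)) = 0 ∧ ∀ γ : StrongDual ℝ X,
      γ (dirOf (low x ζ)) = 0 →
        ‖yOf x ζ - x‖ * W β γ = γ (fderiv ℝ S.G (S.F (yOf x ζ))
            (projT (gradN (S.F (yOf x ζ))) (dirOf (S.lowY x ζ)) v') -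
          fderiv ℝ S.G (S.F x) v') := by
  sorry

end Setup

end Vale.Agent.Lib.P084V
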