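import Mathlib

/-!
The matrix lemma (blueprint 8.5).
-/

namespace Vale.Agent.Lib.P084V

open Matrix

/-- The matrix lemma: positivity of the spectrum and the product inequality. -/
theorem matrix_key {m : ℕ} (W W' l R Θ : Matrix (Fin m) (Fin m) ℝ) (hW : W.PosSemidef)
    (hW' : W'.PosSemidef) (hRl : R * l = 1) (hlR : l * R = 1) (hWl : W' = l * W)
    (hR : R = 1 + W * Θ) {θ : ℝ} (h0 : 0 ≤ θ) (h1 : θ ≤ 1) :
    1 ≤ |(((1 - θ) • (1 : Matrix (Fin m) (Fin m) ℝ) + θ • R).det) *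
      ((1 - θ) • (1 : Matrix (Fin m) (Fin m) ℝ) + θ • l).det| := by
  sorry

end Vale.Agent.Lib.P084V
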