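import Mathlib
import Vale.Agent.Lib.P084V.Fiber
import Vale.Agent.Lib.P084V.LeafDiff
import Vale.Agent.Lib.P084V.MatrixAlg
import Vale.Agent.Lib.P084V.FrameDet

/-!
The key product inequality (blueprint 8.6).
-/

namespace Vale.Agent.Lib.P084V

open MeasureTheory Metric Set Filter Topology Module

namespace Setup

variable {X Y : Type*} [NormedAddCommGroup X] [NormedSpace ℝ X] [FiniteDimensional ℝ X]
  [MeasurableSpace X] [BorelSpace X] [NormedAddCommGroup Y] [NormedSpace ℝ Y]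
  [FiniteDimensional ℝ Y] [MeasurableSpace Y] [BorelSpace Y] {S : Setup X Y}

/-- **Key product inequality**. -/
theorem GenPt.key_product {x : X} {ζ : StrongDual ℝ X} (h : S.GenPt x ζ) {θ : ℝ} (h0 : 0 ≤ θ)
    (h1 : θ ≤ 1) : 1 ≤ S.aF x (yOf x ζ) θ * S.aG (S.F x) (S.F (yOf x ζ)) θ := by
  sorry

end Setup

end Vale.Agent.Lib.P084V
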