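import Mathlib
import Vale.Agent.Lib.P084V.Basic

/-!
Measurability and continuity of the chord Jacobians.
-/

namespace Vale.Agent.Lib.P084V

open MeasureTheory Metric Set Filter Topology Module

namespace Setup

variable {X Y : Type*} [NormedAddCommGroup X] [NormedSpace ℝ X] [FiniteDimensional ℝ X]
  [MeasurableSpace X] [BorelSpace X] [NormedAddCommGroup Y] [NormedSpace ℝ Y]
  [FiniteDimensional ℝ Y] [MeasurableSpace Y] [BorelSpace Y] (S : Setup X Y)

theorem measurable_aF : Measurable (fun p : X × X × ℝ => S.aF p.1 p.2.1 p.2.2) := by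
  sorry

theorem measurable_aG : Measurable (fun p : Y × Y × ℝ => S.aG p.1 p.2.1 p.2.2) := by
  sorry

theorem continuous_aF_theta (x y : X) : Continuous (fun θ : ℝ => S.aF x y θ) := by
  sorry

theorem continuous_aG_theta (x y : Y) : Continuous (fun θ : ℝ => S.aG x y θ) := by
  sorry

theorem measurable_J : Measurable S.J := by
  sorry

theorem measurable_F : Measurable S.F := S.lipschitz_F.continuous.measurable

end Setup

end Vale.Agent.Lib.P084V
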