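import Mathlib
import Vale.Agent.Lib.P084V.NonCross

/-!
The parallel chord map and its derivative (blueprint section 6, leaf map).
-/

namespace Vale.Agent.Lib.P084V

open MeasureTheory Metric Set Filter Topology Module

noncomputable section

namespace Setup

variable {X Y : Type*} [NormedAddCommGroup X] [NormedSpace ℝ X] [FiniteDimensional ℝ X]
  [MeasurableSpace X] [BorelSpace X] [NormedAddCommGroup Y] [NormedSpace ℝ Y]
  [FiniteDimensional ℝ Y] [MeasurableSpace Y] [BorelSpace Y] (S : Setup X Y)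

/-- the map sending parallel chords of the ball of `Y` to chords of the ball of `X`. -/
def leafMap (u' p' : Y) : X :=
  (1 - thetaOf u' p') • S.G (entryPt u' p') + thetaOf u' p' • S.G (exitPt u' p')

/-- the derivative of the chord map has the Jacobian `aG`. -/
theorem leaf_hasFDeriv {u' p' : Y} (hu' : ‖u'‖ = 1) (hp : ‖p'‖ < 1)
    (g1 : S.symm.GoodS (entryPt u' p')) (g2 : S.symm.GoodS (exitPt u' p')) :
    ∃ L : Y →L[ℝ] X, HasFDerivAt (S.leafMap u') L p' ∧
      |((S.ι : X →L[ℝ] Y).comp L).det| =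
        S.aG (entryPt u' p') (exitPt u' p') (thetaOf u' p') := by
  sorry

theorem leaf_mem_ball {u' p' : Y} (hu' : ‖u'‖ = 1) (hp : ‖p'‖ < 1) :
    ‖S.leafMap u' p'‖ ≤ 1 := by
  sorry

end Setup

end

end Vale.Agent.Lib.P084V
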