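import Mathlib
import Vale.Agent.Lib.P084V.MasterAPI
import Vale.Agent.Lib.P084V.ChordCorr
import Vale.Agent.Lib.P084V.NullMaps

/-!
Transfer of the master integral of `Y` to the cotangent model of `X` (blueprint 5.4).
-/

namespace Vale.Agent.Lib.P084V

open MeasureTheory Metric Set Filter Topology Module
open scoped ENNReal

namespace Setup

variable {X Y : Type*} [NormedAddCommGroup X] [NormedSpace ℝ X] [FiniteDimensional ℝ X]
  [MeasurableSpace X] [BorelSpace X] [NormedAddCommGroup Y] [NormedSpace ℝ Y]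
  [FiniteDimensional ℝ Y] [MeasurableSpace Y] [BorelSpace Y] (S : Setup X Y)

/-- Theorem 5.4. -/
theorem masterInt_Y {Ξ' : Dat Y → ℝ≥0∞} (hΞ' : Measurable Ξ') :
    masterInt S.μ' S.μd' Ξ' = S.masterY Ξ' := by
  sorry

theorem leftInt_Y {Ξ' : Dat Y → ℝ≥0∞} (hΞ' : Measurable Ξ') :
    leftInt S.μ' S.μd' Ξ' = S.masterY Ξ' := by
  sorry

/-- a data function of `Y` not depending on the covector. -/
lemma masterY_eq {Ξ'' : Y × Y × ℝ → ℝ≥0∞} :
    S.masterY (fun p => Ξ'' (p.1, p.2.1, p.2.2.1)) =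
      masterInt S.μ S.μd (fun p => Ξ'' (S.F p.1, S.F p.2.1, p.2.2.1)) := rfl

/-- equality of the Mahler volumes. -/
theorem mass_eq : S.μ (closedBall 0 1) * S.μd (closedBall 0 1) =
    S.μ' (closedBall 0 1) * S.μd' (closedBall 0 1) := by
  sorry

end Setup

end Vale.Agent.Lib.P084V
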