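import Mathlib
import Vale.Agent.Lib.P084V.LeafDeriv
import Vale.Agent.Lib.P084V.Transfer
import Vale.Agent.Lib.P084V.ChordMeas

/-!
The leaf inequality (blueprint 6.3, 6.4).
-/

namespace Vale.Agent.Lib.P084V

open MeasureTheory Metric Set Filter Topology Module
open scoped ENNReal

namespace Setup

variable {X Y : Type*} [NormedAddCommGroup X] [NormedSpace ℝ X] [FiniteDimensional ℝ X]
  [MeasurableSpace X] [BorelSpace X] [NormedAddCommGroup Y] [NormedSpace ℝ Y]
  [FiniteDimensional ℝ Y] [MeasurableSpace Y] [BorelSpace Y] (S : Setup X Y)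

/-- Lemma 6.3: a.e. parallel chord has good ends and a generic lifted covector. -/
theorem gen_leaf : ∀ᵐ η' ∂S.μd', ‖η'‖ ≤ 1 → ∀ᵐ p' ∂S.μ', ‖p'‖ < 1 →
    S.symm.GoodS (entryPt (dirOf η') p') ∧ S.symm.GoodS (exitPt (dirOf η') p') ∧
      DiffN (liftCov (gradN (S.G (entryPt (dirOf η') p')))
        ((unitV η').comp (fderiv ℝ S.F (S.G (entryPt (dirOf η') p'))))
        (dirXY (S.G (entryPt (dirOf η') p')) (S.G (exitPt (dirOf η') p')))) := by
  sorry

/-- injectivity of the chord map on the good points, for a generic direction. -/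
theorem leaf_injOn {η' : StrongDual ℝ Y} (hη : η' ≠ 0) (hd : DiffN η') :
    InjOn (S.leafMap (dirOf η'))
      {p' | ‖p'‖ < 1 ∧ S.symm.GoodS (entryPt (dirOf η') p') ∧ S.symm.GoodS (exitPt (dirOf η') p') ∧
        DiffN (liftCov (gradN (S.G (entryPt (dirOf η') p')))
          ((unitV η').comp (fderiv ℝ S.F (S.G (entryPt (dirOf η') p'))))
          (dirXY (S.G (entryPt (dirOf η') p')) (S.G (exitPt (dirOf η') p'))))} := by
  sorry

/-- Theorem 6.4. -/
theorem leaf_area : leftInt S.μ' S.μd' (fun p => ENNReal.ofReal (S.aG p.1 p.2.1 p.2.2.1)) ≤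
    S.μ (closedBall 0 1) * S.μd' (closedBall 0 1) := by
  sorry

/-- Theorem 6.4, symmetric form. -/
theorem leaf_area_F : leftInt S.μ S.μd (fun p => ENNReal.ofReal (S.aF p.1 p.2.1 p.2.2.1)) ≤
    S.μ' (closedBall 0 1) * S.μd (closedBall 0 1) := by
  sorry

end Setup

end Vale.Agent.Lib.P084V
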