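import Mathlib
import Vale.Agent.Lib.P084V.KeyProduct
import Vale.Agent.Lib.P084V.GenAE
import Vale.Agent.Lib.P084V.LeafArea
import Vale.Agent.Lib.P084V.Det0

/-!
The chain of inequalities (blueprint section 10).
-/

namespace Vale.Agent.Lib.P084V

open MeasureTheory Metric Set Filter Topology Module
open scoped ENNReal

noncomputable section

namespace Setup

variable {X Y : Type*} [NormedAddCommGroup X] [NormedSpace ℝ X] [FiniteDimensional ℝ X]
  [MeasurableSpace X] [BorelSpace X] [NormedAddCommGroup Y] [NormedSpace ℝ Y]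
  [FiniteDimensional ℝ Y] [MeasurableSpace Y] [BorelSpace Y] (S : Setup X Y)

/-- the ratio of the volumes of the unit balls. -/
def r : ℝ := (S.μ (closedBall 0 1)).toReal / (S.μ' (closedBall 0 1)).toReal

theorem r_pos : 0 < S.r := by
  sorry

/-- a.e. on the cotangent model, `aG` equals the ratio `r`, at the actual position. -/
theorem chain_eq : ∀ᵐ w ∂S.μ, ‖w‖ ≤ 1 → ∀ᵐ ζ ∂S.μd, ζ ∈ CylD (unitV w) →
    S.aG (S.F (unitV w)) (S.F (yOf (unitV w) ζ)) (‖w‖ ^ finrank ℝ X) = S.r := by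
  sorry

/-- a.e. on the cotangent model, `aG` equals the ratio `r` at the start of the chord. -/
theorem chain_zero : ∀ᵐ w ∂S.μ, ‖w‖ ≤ 1 → ∀ᵐ ζ ∂S.μd, ζ ∈ CylD (unitV w) →
    S.aG (S.F (unitV w)) (S.F (yOf (unitV w) ζ)) 0 = S.r := by
  sorry

/-- formula 10.1 of the blueprint. -/
theorem tJ_ae : ∀ᵐ w ∂S.μ, ‖w‖ ≤ 1 → ∀ᵐ ζ ∂S.μd, ζ ∈ CylD (unitV w) →
    gradN (unitV w) (dirOf (low (unitV w) ζ)) =
      (S.r * S.J (unitV w)) * gradN (S.F (unitV w)) (dirOf (S.lowY (unitV w) ζ)) := by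
  sorry

end Setup

end

end Vale.Agent.Lib.P084V
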