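import Mathlib
import Vale.Agent.Lib.P084V.NormDiff

/-!
A locally Lipschitz function satisfying the Euler identity a.e. is homogeneous (blueprint 11.1), and
the integration lemma for the final step.
-/

namespace Vale.Agent.Lib.P084V

open MeasureTheory Metric Set Filter Topology Module
open scoped NNReal

variable {V : Type*} [NormedAddCommGroup V] [NormedSpace ℝ V] [FiniteDimensional ℝ V]
  [MeasurableSpace V] [BorelSpace V] (μ : Measure V) [μ.IsAddHaarMeasure]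

/-- Lemma 11.1. -/
theorem euler_homog {U : Set V} (hU : IsOpen U) (hstar : ∀ z ∈ U, ∀ s ∈ Ioc (0 : ℝ) 1, s • z ∈ U)
    {w : V → ℝ} (hw : ∀ z ∈ U, ∃ K : ℝ≥0, ∃ δ > 0, LipschitzOnWith K w (ball z δ))
    (hE : ∀ᵐ z ∂μ, z ∈ U → ∃ L : StrongDual ℝ V, HasFDerivAt w L z ∧ L z = w z) :
    ∀ z ∈ U, ∀ s ∈ Ioc (0 : ℝ) 1, w (s • z) = s * w z := by
  sorry

variable {E' : Type*} [NormedAddCommGroup E'] [NormedSpace ℝ E'] [FiniteDimensional ℝ E']

/-- a Lipschitz map with derivative of norm at most one a.e. is `1`-Lipschitz. -/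
theorem one_lipschitz_of_ae {Φ : V → E'} {K : ℝ≥0} (hΦ : LipschitzWith K Φ)
    (h : ∀ᵐ z ∂μ, ∀ v, ‖fderiv ℝ Φ z v‖ ≤ ‖v‖) : ∀ a b, ‖Φ a - Φ b‖ ≤ ‖a - b‖ := by
  sorry

end Vale.Agent.Lib.P084V
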