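import Mathlib
import Vale.Agent.Lib.P084V.Basic
import Vale.Agent.Lib.P084.Mank

/-!
Faces correspond under the isometry and `DF` is affine on them (blueprint 11.3).
-/

namespace Vale.Agent.Lib.P084V

open MeasureTheory Metric Set Filter Topology Module

namespace Setup

variable {X Y : Type*} [NormedAddCommGroup X] [NormedSpace ℝ X] [FiniteDimensional ℝ X]
  [MeasurableSpace X] [BorelSpace X] [NormedAddCommGroup Y] [NormedSpace ℝ Y]
  [FiniteDimensional ℝ Y] [MeasurableSpace Y] [BorelSpace Y] (S : Setup X Y)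

/-- the face at a good point is mapped onto the face at its image. -/
theorem faces_image {x : X} (hx : ‖x‖ = 1) (hg : S.GoodS x) :
    S.F '' {z : X | ‖z‖ ≤ 1 ∧ gradN x z = 1} = {z' : Y | ‖z'‖ ≤ 1 ∧ gradN (S.F x) z' = 1} := by
  sorry

/-- on the face `DF x` acts as `F`. -/
theorem fderiv_on_face {x : X} (hx : ‖x‖ = 1) (hg : S.GoodS x) {z : X} (hz : ‖z‖ ≤ 1)
    (h1 : gradN x z = 1) : fderiv ℝ S.F x z = S.F z := by
  sorry

end Setup

end Vale.Agent.Lib.P084V
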