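import Mathlib
import Vale.Agent.Lib.P084V.NormDiff

/-!
The lower sheet of the dual ball at a point of the sphere (blueprint section 11).
-/

namespace Vale.Agent.Lib.P084V

open MeasureTheory Metric Set Filter Topology Module
open scoped NNReal

noncomputable section

variable {X : Type*} [NormedAddCommGroup X] [NormedSpace ℝ X] [FiniteDimensional ℝ X]

/-- the height of the lower sheet at `x` over `ζ`. -/
def aSheet (x : X) (ζ : StrongDual ℝ X) : ℝ := ζ x + entryT (gradN x) ζ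

variable {x : X}

theorem aSheet_zero (hx : ‖x‖ = 1) (hd : DiffN x) : aSheet x 0 = -1 := by
  sorry

theorem aSheet_lip (hx : ‖x‖ = 1) (hd : DiffN x) {ζ0 : StrongDual ℝ X} (hζ0 : ζ0 ∈ Dd x) :
    ∃ K : ℝ≥0, ∃ δ > 0, ball ζ0 δ ⊆ Dd x ∧ LipschitzOnWith K (aSheet x) (ball ζ0 δ) := by
  sorry

/-- the Euler identity for the sheet. -/
theorem aSheet_hasFDeriv (hx : ‖x‖ = 1) (hd : DiffN x) {ζ : StrongDual ℝ X} (hζ : ζ ∈ Dd x)
    (hdl : DiffN (low x ζ)) :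
    ∃ L : StrongDual ℝ (StrongDual ℝ X), HasFDerivAt (aSheet x) L ζ ∧
      L ζ - aSheet x ζ = -1 / gradN x (dirOf (low x ζ)) := by
  sorry

/-- the limit at the origin of the lower sheet (Lemma 11.2). -/
theorem aSheet_limit (hx : ‖x‖ = 1) (hd : DiffN x) (ζ : StrongDual ℝ X) :
    Tendsto (fun s : ℝ => (aSheet x (s • ζ) + 1) / s) (𝓝[>] 0)
      (𝓝 (sSup ((fun z => ζ x - ζ z) '' {z : X | ‖z‖ ≤ 1 ∧ gradN x z = 1}))) := by
  sorry

/-- translation invariance along the vertical line. -/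
theorem aSheet_add_smul (hx : ‖x‖ = 1) (hd : DiffN x) {ζ : StrongDual ℝ X} (hζ : ζ ∈ Dd x) (s : ℝ) :
    aSheet x (ζ + s • gradN x) = aSheet x ζ := by
  sorry

theorem Dd_star (hx : ‖x‖ = 1) (hd : DiffN x) {ζ : StrongDual ℝ X} (hζ : ζ ∈ Dd x) {s : ℝ}
    (hs : s ∈ Ioc (0 : ℝ) 1) : s • ζ ∈ Dd x := by
  sorry

theorem zero_mem_Dd (hx : ‖x‖ = 1) (hd : DiffN x) : (0 : StrongDual ℝ X) ∈ Dd x := by
  sorry

theorem neg_mem_Dd {ζ : StrongDual ℝ X} (hζ : ζ ∈ Dd x) : -ζ ∈ Dd x := by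
  sorry

/-- membership in the open dual ball in terms of the sheets. -/
theorem norm_lt_one_iff (hx : ‖x‖ = 1) (hd : DiffN x) {ζ : StrongDual ℝ X} (hζ : ζ ∈ Dd x) :
    ‖ζ‖ < 1 ↔ entryT (gradN x) ζ < 0 ∧ 0 < - entryT (gradN x) (-ζ) := by
  sorry

theorem one_le_norm_of_not_Dd {ζ : StrongDual ℝ X} (hζ : ζ ∉ Dd x) : 1 ≤ ‖ζ‖ := by
  sorry

/-- an a.e. statement on the dual cylinder, invariant under vertical translation, holds a.e. on
`Dd x`. -/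
theorem ae_Dd_of_CylD [MeasurableSpace X] [BorelSpace X] (μd : Measure (StrongDual ℝ X))
    [μd.IsAddHaarMeasure] (hx : ‖x‖ = 1) (hd : DiffN x) {P : StrongDual ℝ X → Prop}
    (hP : ∀ᵐ ζ ∂μd, ζ ∈ CylD x → P ζ) (hinv : ∀ ζ ∈ Dd x, ∀ s : ℝ, P (ζ + s • gradN x) ↔ P ζ) :
    ∀ᵐ ζ ∂μd, ζ ∈ Dd x → P ζ := by
  sorry

end

end Vale.Agent.Lib.P084V
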