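import Mathlib
import Vale.Agent.Lib.P084V.Sheets
import Vale.Agent.Lib.P084V.Faces
import Vale.Agent.Lib.P084V.Euler
import Vale.Agent.Lib.P084V.Santalo
import Vale.Agent.Lib.P084V.Alexandrov
import Vale.Agent.Lib.P084V.ChordCorr

/-!
`DF x` is an isometry (blueprint section 11).
-/

namespace Vale.Agent.Lib.P084V

open MeasureTheory Metric Set Filter Topology Module

namespace Setup

variable {X Y : Type*} [NormedAddCommGroup X] [NormedSpace ℝ X] [FiniteDimensional ℝ X]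
  [MeasurableSpace X] [BorelSpace X] [NormedAddCommGroup Y] [NormedSpace ℝ Y]
  [FiniteDimensional ℝ Y] [MeasurableSpace Y] [BorelSpace Y] (S : Setup X Y)

/-- the section 11 of the blueprint. -/
theorem sheet_isometry {x : X} (hx : ‖x‖ = 1) (hg : S.GoodS x) {c : ℝ} (hc : 0 < c)
    (h : ∀ᵐ ζ ∂S.μd, ζ ∈ CylD x →
      gradN x (dirOf (low x ζ)) = c * gradN (S.F x) (dirOf (S.lowY x ζ))) :
    c = 1 ∧ ∀ v, ‖fderiv ℝ S.F x v‖ = ‖v‖ := by
  sorry

end Setup

end Vale.Agent.Lib.P084V
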