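import Mathlib
import Vale.Agent.Lib.P084V.Chain
import Vale.Agent.Lib.P084V.SheetIso

/-!
The radial extension is an isometry (blueprint section 11, end).
-/

namespace Vale.Agent.Lib.P084V

open MeasureTheory Metric Set Filter Topology Module

namespace Setup

variable {X Y : Type*} [NormedAddCommGroup X] [NormedSpace ℝ X] [FiniteDimensional ℝ X]
  [MeasurableSpace X] [BorelSpace X] [NormedAddCommGroup Y] [NormedSpace ℝ Y]
  [FiniteDimensional ℝ Y] [MeasurableSpace Y] [BorelSpace Y] (S : Setup X Y)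

theorem isometry_ae : ∀ᵐ z ∂S.μ, ∀ v, ‖fderiv ℝ S.F z v‖ = ‖v‖ := by
  sorry

theorem isometric (a b : X) : ‖S.F a - S.F b‖ = ‖a - b‖ := by
  sorry

end Setup

end Vale.Agent.Lib.P084V
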