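import Mathlib
import Vale.Agent.Lib.P084V.Defs
import Vale.Agent.Lib.P084.Mank
import Vale.Agent.Lib.P084.Tau
import Vale.Agent.Lib.P084.Core2
import Vale.Agent.Lib.P084.Exposed

/-!
Tingley oddness theorem for finite dimensional spaces (blueprint section 9).
-/

namespace Vale.Agent.Lib.P084V

open Metric Set Module

variable {X Y : Type*} [NormedAddCommGroup X] [NormedSpace ℝ X] [FiniteDimensional ℝ X]
  [NormedAddCommGroup Y] [NormedSpace ℝ Y] [FiniteDimensional ℝ Y]

/-- weak Straszewicz: the closed unit ball is the convex hull of the closure of its exposed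
points. -/
theorem ball_subset_hull_exposed {x : X} (hx : ‖x‖ ≤ 1) :
    x ∈ convexHull ℝ (closure {u : X | P084.IsExposedPt u}) := by
  sorry

/-- **Tingley**: a surjective isometry of the unit spheres of finite dimensional spaces is odd. -/
theorem odd_of_sphIso {f : X → Y} {g : Y → X} (h : P084_helper82.SphIso f g) {x : X} (hx : ‖x‖ = 1) :
    f (-x) = - f x := by
  sorry

end Vale.Agent.Lib.P084V
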