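import Mathlib
import Vale.Agent.Lib.P084V.IsoAE
import Vale.Agent.Lib.P084V.Odd
import Vale.Agent.Lib.P084_helper82.Bridge

/-!
Every finite dimensional real normed space has the Mazur-Ulam property.
-/

namespace Vale.Agent.Lib.P084V

open MeasureTheory Metric Set Module

variable {X Y : Type*} [NormedAddCommGroup X] [NormedSpace ℝ X] [FiniteDimensional ℝ X]
  [NormedAddCommGroup Y] [NormedSpace ℝ Y]

/-- equal dimensions, by Hausdorff dimension. -/
theorem finrank_eq_of_radIso [FiniteDimensional ℝ Y] {F : X → Y} {G : Y → X}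
    (hF : P084_helper82.RadIso F) (hG : P084_helper82.RadIso G) (gf : ∀ z, G (F z) = z)
    (fg : ∀ y, F (G y) = y) : finrank ℝ X = finrank ℝ Y := by
  sorry

/-- the low dimensional case. -/
theorem low_dim (hdim : finrank ℝ X ≤ 1) (f : sphere (0 : X) 1 → sphere (0 : Y) 1)
    (hiso : ∀ x y, ‖(f x : Y) - (f y : Y)‖ = ‖(x : X) - (y : X)‖)
    (hsurj : Function.Surjective f) : ∃ L : X ≃ₗᵢ[ℝ] Y, ∀ x, (f x : Y) = L x := by
  sorry

/-- **Main theorem**. -/
theorem tingley_findim (f : sphere (0 : X) 1 → sphere (0 : Y) 1)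
    (hiso : ∀ x y, ‖(f x : Y) - (f y : Y)‖ = ‖(x : X) - (y : X)‖)
    (hsurj : Function.Surjective f) : ∃ L : X ≃ₗᵢ[ℝ] Y, ∀ x, (f x : Y) = L x := by
  sorry

end Vale.Agent.Lib.P084V
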